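import Crest.Statements.S0010
import Crest.Agent.S0010Lib.Final

set_option autoImplicit false
open Crest.NumberTheoryR.MilnorK
open Crest Crest.NumberTheoryR

namespace Crest.Agent.S0010

/-- Let K and L be fields of characteristic p that are finitely generated and of transcendence degree at least 2 over algebraically closed subfields k and l. Let Θ be a linear isomorphism, over the integers mod p, from Kˣ/(Kˣ)^p to Lˣ/(Lˣ)^p that maps the span of the Steinberg elements [f] ⊗ [1 - f] (f ≠ 0, 1) of K exactly onto that of L. Then there is exactly one field isomorphism α from K to L with α(k) = l such that, for some non-zero scalar c, Θ[u] = c · [α(u)] for every unit u of K. -/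
theorem result {p : ℕ} [Fact p.Prime]
    {K L : Type*} [Field K] [Field L] [CharP K p] [CharP L p] (k : Subfield K) (l : Subfield L)
    [IsAlgClosed k] [IsAlgClosed l]
    (hK : ∃ s : Finset K, Subfield.closure ((k : Set K) ∪ (s : Set K)) = ⊤)
    (hL : ∃ s : Finset L, Subfield.closure ((l : Set L) ∪ (s : Set L)) = ⊤)
    (hK2 : 2 ≤ Algebra.trdeg k K) (hL2 : 2 ≤ Algebra.trdeg l L)
    (Θ : KOne K p ≃ₗ[ZMod p] KOne L p) (hΘ : IsCompatible Θ) :
    ∃! α : K ≃+* L, k.map α.toRingHom = l ∧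
      ∃ c : ZMod p, c ≠ 0 ∧ ∀ u : Kˣ, Θ (cls K p u) = c • cls L p (Units.map α.toRingHom.toMonoidHom u) := by
  have hτ := Crest.Agent.S0010Lib.compat_toV Θ hΘ
  have hτ' := Crest.Agent.S0010Lib.compat_toV_symm Θ hΘ
  have hK' := Crest.Agent.S0010Lib.exists_not_dep k hK hK2
  have hL' := Crest.Agent.S0010Lib.exists_not_dep l hL hL2
  obtain ⟨n, hn, α, hα⟩ := Crest.Agent.S0010Lib.exists_ringEquiv hτ hτ' hK' hL'
  refine ⟨α, ⟨Crest.Agent.S0010Lib.map_base_eq p k l hK hL α, ?_⟩, ?_⟩
  · have hn' : (n : ZMod p) ≠ 0 := Crest.Agent.S0010Lib.zmod_ne_zero_of_natCast (L := L) hn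
    refine ⟨(n : ZMod p)⁻¹, inv_ne_zero hn', ?_⟩
    intro u
    have h1 := hα (u : K)
    have h2 := Crest.Agent.S0010Lib.cl_unit (p := p) (Units.map α.toRingHom.toMonoidHom u)
    have h3 := Crest.Agent.S0010Lib.cl_unit (p := p) u
    have h4 : (cls L p (Units.map α.toRingHom.toMonoidHom u)) = n • Θ (cls K p u) := by
      have h5 : Crest.Agent.S0010Lib.cl p (α (u : K))
          = Crest.Agent.S0010Lib.mkV (Units.map α.toRingHom.toMonoidHom u) := h2
      rw [h5, h3] at h1
      exact h1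
    have h6 : (n : ZMod p) • Θ (cls K p u) = n • Θ (cls K p u) :=
      Nat.cast_smul_eq_nsmul (ZMod p) n (Θ (cls K p u))
    rw [h4, ← h6, smul_smul, inv_mul_cancel₀ hn', one_smul]
  · rintro α₁ ⟨-, c₁, hc₁, hα₁⟩
    obtain ⟨n₁, hn₁, hα₁'⟩ := Crest.Agent.S0010Lib.cl_map_of_smul Θ α₁ hc₁ hα₁
    exact Crest.Agent.S0010Lib.ringEquiv_unique Θ hn hn₁ α α₁ hα hα₁' hL'

end Crest.Agent.S0010
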