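-- S0046: see Crest/Agent/Ryser/BLUEPRINT.md
import Crest.Statements.S0046
import Crest.Agent.Ryser.Main

set_option autoImplicit false
open Crest Crest.CombinatoricsR

namespace Crest.Agent.S0046

/-- There is s₀ such that for each prime s ≥ s₀ with s ≡ 2 (mod 3) there is n₀ ≥ 3 such that for every odd n ≥ n₀, writing q = s ^ n, there is a finite intersecting (q+1)-partite (q+1)-uniform hypergraph (vertices Fin N labelled by q+1 parts; a nonempty family of edges, each meeting every part in exactly one vertex; any two edges share a vertex) where every set of vertices meeting all edges has at least q+1 elements, so that its covering number is q+1 and not the q of Ryser's conjectured bound. -/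
theorem result :
    ∃ s₀ : ℕ, ∀ s : ℕ, s₀ ≤ s → s.Prime → s % 3 = 2 →
      ∃ n₀ : ℕ, 3 ≤ n₀ ∧ ∀ n : ℕ, n₀ ≤ n → Odd n →
        ∃ (N : ℕ) (part : Fin N → Fin (s ^ n + 1)) (E : Finset (Finset (Fin N))),
          E.Nonempty ∧
          (∀ e ∈ E, ∀ i : Fin (s ^ n + 1), (e.filter (fun v => part v = i)).card = 1) ∧
          (∀ e ∈ E, ∀ f ∈ E, (e ∩ f).Nonempty) ∧
          (∀ S : Finset (Fin N), (∀ e ∈ E, (e ∩ S).Nonempty) → s ^ n + 1 ≤ S.card) := by
  obtain ⟨q₀, h⟩ := Crest.Agent.Ryser.hypergraph_large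
  refine ⟨0, fun s _ hs _ => ⟨q₀ + 3, by omega, fun n hn hodd => ?_⟩⟩
  classical
  haveI : Fact s.Prime := ⟨hs⟩
  have hn0 : n ≠ 0 := by omega
  letI : Fintype (GaloisField s n) := Fintype.ofFinite _
  have hc : Fintype.card (GaloisField s n) = s ^ n := by
    rw [← Nat.card_eq_fintype_card]
    exact GaloisField.card s n hn0
  have hlarge : q₀ ≤ s ^ n := by
    have h1 : n < 2 ^ n := Nat.lt_two_pow_self
    have h2 : 2 ^ n ≤ s ^ n := Nat.pow_le_pow_left hs.two_le n
    omega
  have := Crest.Agent.Ryser.hypergraph_transfer (K := GaloisField s n)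
    (h (GaloisField s n) (by rw [hc]; exact hlarge))
  rw [hc] at this
  obtain ⟨N, part, E, h1, h2, h3, _, _, h6⟩ := this
  exact ⟨N, part, E, h1, h2, h3, h6⟩

end Crest.Agent.S0046
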