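import Crest.Statements.S0066
import Crest.Agent.S0066Lib.Transfer

set_option autoImplicit false
open Crest Crest.CombinatoricsR

namespace Crest.Agent.S0066

open Crest.Agent.S0066Lib in
lemma final_far (m N n card : ℕ) (hn : n = m * N) (hm : 0 < m) (h : N ^ 2 ≤ card) :
    ((m : ℝ) ^ 2)⁻¹ * (n : ℝ) ^ 2 ≤ (card : ℝ) := by
  have hm' : (m : ℝ) ≠ 0 := by positivity
  have h1 : ((m : ℝ) ^ 2)⁻¹ * (n : ℝ) ^ 2 = (N : ℝ) ^ 2 := by
    rw [hn]
    push_cast
    field_simp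
  rw [h1]
  exact_mod_cast h

lemma final_count (m N n c : ℕ) (hn : n = m * N) (hm : 288 ≤ m) (hN : 0 < N)
    (hc : c ≤ (9 * (8 * N)) * (2 * (2 * N)) * n ^ 129) :
    (c : ℝ) / (n : ℝ) ^ 132 ≤ ((m : ℝ) ^ 2)⁻¹ * (N : ℝ)⁻¹ := by
  have hnpos : 0 < n := by rw [hn]; positivity
  have key : c * (m ^ 2 * N) ≤ n ^ 132 := by
    calc c * (m ^ 2 * N) ≤ (9 * (8 * N)) * (2 * (2 * N)) * n ^ 129 * (m ^ 2 * N) :=
          Nat.mul_le_mul_right _ hc
      _ = 288 * (m ^ 2 * N ^ 3) * n ^ 129 := by ring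
      _ ≤ m * (m ^ 2 * N ^ 3) * n ^ 129 := by gcongr
      _ = n ^ 3 * n ^ 129 := by rw [hn]; ring
      _ = n ^ 132 := by ring
  have hn' : (0 : ℝ) < (n : ℝ) ^ 132 := by positivity
  have hm' : (0 : ℝ) < (m : ℝ) ^ 2 * (N : ℝ) := by
    have : 0 < m := by omega
    positivity
  rw [div_le_iff₀ hn', ← mul_inv, ← div_eq_inv_mul, le_div_iff₀ hm']
  exact_mod_cast key

open Crest.Agent.S0066Lib in
lemma card_bound (h : ℕ) (hh : 1 ≤ h) :
    Fintype.card (Crest.Agent.S0066Lib.Line (h + 3) (2 * 2 ^ h)) ≤ (386 * h + 2) * 2 ^ h := by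
  refine Crest.Agent.S0066Lib.Line.card_le.trans ?_
  have h2 : (2 : ℕ) ^ (h + 3) = 8 * 2 ^ h := by rw [pow_add]; ring
  rw [h2]
  have h3 : 33 * (2 * 2 ^ h) + 2 * ((h + 3) * (2 * (2 * 2 ^ h))) + 2 * 2 ^ h + 29 * (2 * 2 ^ h) +
      2 * 2 ^ h + (h + 3 + 1) * (3 * (8 * 2 ^ h)) + 2 * 2 ^ h + 2 * 2 ^ h + 33 * (2 * 2 ^ h) =
      (318 + 32 * h) * 2 ^ h := by ring
  rw [h3]
  exact Nat.mul_le_mul_right _ (by omega)

/-- There is a fixed 66 × 66 binary pattern H such that for every h ≥ 1, with n = (386h + 2) · 2^h and ε = (386h + 2)⁻², some n × n binary matrix A is ε-far from free of ordered copies of H (every n × n binary matrix without an ordered copy of H differs from A in at least ε · n² cells) while the number of ordered copies of H in A is at most ε · 2^(-h) · n^132. An ordered copy picks 66 rows and 66 columns in increasing order on which A coincides with H, zeros included. -/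
theorem result :
    ∃ H : Fin 66 → Fin 66 → Bool, ∀ h : ℕ, 1 ≤ h →
      ∃ A : Fin ((386 * h + 2) * 2 ^ h) → Fin ((386 * h + 2) * 2 ^ h) → Bool,
        (∀ B : Fin ((386 * h + 2) * 2 ^ h) → Fin ((386 * h + 2) * 2 ^ h) → Bool,
          Crest.CombinatoricsR.OrderedMatrix.orderedCopyCount H B = 0 →
            ((386 * (h : ℝ) + 2) ^ 2)⁻¹ * (((386 * h + 2) * 2 ^ h : ℕ) : ℝ) ^ 2 ≤
              ((Finset.univ.filter (fun rc : Fin ((386 * h + 2) * 2 ^ h) × Fin ((386 * h + 2) * 2 ^ h) =>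
                A rc.1 rc.2 ≠ B rc.1 rc.2)).card : ℝ)) ∧
        (Crest.CombinatoricsR.OrderedMatrix.orderedCopyCount H A : ℝ) /
            (((386 * h + 2) * 2 ^ h : ℕ) : ℝ) ^ 132 ≤
          ((386 * (h : ℝ) + 2) ^ 2)⁻¹ * (2 : ℝ)⁻¹ ^ h := by
  refine ⟨Crest.Agent.S0066Lib.Hpat, fun h hh => ?_⟩
  have hN : 0 < 2 ^ h := by positivity
  have hd : 2 ^ (h + 3) = 8 * 2 ^ h := by rw [pow_add]; ring
  let e := Crest.Agent.S0066Lib.lineEmb (card_bound h hh)
  have hm : (((386 * h + 2 : ℕ) : ℝ)) = 386 * (h : ℝ) + 2 := by push_cast; ring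
  refine ⟨Crest.Agent.S0066Lib.Amat e, ?_, ?_⟩
  · intro B hB
    have h1 := Crest.Agent.S0066Lib.far_transfer rfl hN hd e B hB
    have h2 := final_far (386 * h + 2) (2 ^ h) ((386 * h + 2) * 2 ^ h) _ rfl (by omega) h1
    rw [hm] at h2
    exact h2
  · have h1 := Crest.Agent.S0066Lib.count_transfer (d := h + 3) (M := 2 * 2 ^ h)
      (n := (386 * h + 2) * 2 ^ h) (by omega) rfl e
    rw [hd] at h1
    have h2 := final_count (386 * h + 2) (2 ^ h) ((386 * h + 2) * 2 ^ h) _ rfl (by omega) hN h1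
    rw [hm] at h2
    have h3 : ((2 ^ h : ℕ) : ℝ)⁻¹ = (2 : ℝ)⁻¹ ^ h := by
      push_cast
      rw [inv_pow]
    rw [h3] at h2
    exact h2

end Crest.Agent.S0066
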