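import Crest.Statements.S0077
import Crest.Agent.Lib.SharpRusso

set_option autoImplicit false
open Crest Crest.CombinatoricsR

namespace Crest.Agent.S0077

open Crest.CombinatoricsR.RandomGraph Crest.Agent.SharpLib

/-- the action on edge slots, as a permutation -/
def actEdge {n : ℕ} (σ : Equiv.Perm (Fin n)) : Equiv.Perm (EdgeSlot n) where
  toFun e := ⟨Sym2.map σ e.1, by rw [Sym2.isDiag_map σ.injective]; exact e.2⟩
  invFun e := ⟨Sym2.map (σ⁻¹ : Equiv.Perm (Fin n)) e.1, by
    rw [Sym2.isDiag_map (σ⁻¹ : Equiv.Perm (Fin n)).injective]; exact e.2⟩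
  left_inv := by
    intro e
    apply Subtype.ext
    simp [Sym2.map_map]
  right_inv := by
    intro e
    apply Subtype.ext
    simp [Sym2.map_map]

/-- the vertices of an edge slot -/
def vsEdge {n : ℕ} (e : EdgeSlot n) : Finset (Fin n) := e.1.toFinset

lemma vsEdge_act {n : ℕ} (σ : Equiv.Perm (Fin n)) (e : EdgeSlot n) :
    vsEdge (actEdge σ e) = (vsEdge e).image σ := by
  ext a
  simp only [vsEdge, Sym2.mem_toFinset, Finset.mem_image, actEdge, Equiv.coe_fn_mk, Sym2.mem_map]

lemma vsEdge_inj {n : ℕ} : Function.Injective (vsEdge (n := n)) := by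
  intro e e' h
  apply Subtype.ext
  ext a
  have := Finset.ext_iff.mp h a
  simpa [vsEdge] using this

lemma vsEdge_card {n : ℕ} (e : EdgeSlot n) : (vsEdge e).card = 2 :=
  Sym2.card_toFinset_of_not_isDiag _ e.2

lemma adj_iff {n : ℕ} (ω : EdgeSlot n → Bool) (i j : Fin n) :
    (graphOf ω).Adj i j ↔ ∃ h : ¬ (s(i, j)).IsDiag, ω ⟨s(i, j), h⟩ = true := by
  unfold graphOf
  rw [SimpleGraph.fromEdgeSet_adj]
  constructor
  · rintro ⟨⟨h, hω⟩, _⟩
    exact ⟨h, hω⟩
  · rintro ⟨h, hω⟩
    exact ⟨⟨h, hω⟩, by simpa using h⟩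

lemma adj_comp {n : ℕ} (y : EdgeSlot n → Bool) (σ : Equiv.Perm (Fin n)) (i j : Fin n) :
    (graphOf (y ∘ actEdge σ)).Adj i j ↔ (graphOf y).Adj (σ i) (σ j) := by
  rw [adj_iff, adj_iff]
  constructor
  · rintro ⟨h, hω⟩
    have h' : ¬ (s(σ i, σ j)).IsDiag := by
      have : i ≠ j := by simpa using h
      simpa using this
    exact ⟨h', hω⟩
  · rintro ⟨h, hω⟩
    have h' : ¬ (s(i, j)).IsDiag := by
      have : σ i ≠ σ j := by simpa using h
      have : i ≠ j := fun e => this (by rw [e])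
      simpa using this
    exact ⟨h', hω⟩

lemma graphOf_map {n : ℕ} (y : EdgeSlot n → Bool) (σ : Equiv.Perm (Fin n)) :
    (graphOf (y ∘ actEdge σ)).map σ.toEmbedding = graphOf y := by
  ext a b
  rw [SimpleGraph.map_adj]
  constructor
  · rintro ⟨u, v, huv, rfl, rfl⟩
    exact (adj_comp y σ u v).mp huv
  · intro h
    refine ⟨σ⁻¹ a, σ⁻¹ b, (adj_comp y σ _ _).mpr (by simpa using h), by simp, by simp⟩

lemma graphOf_map_inv {n : ℕ} (y : EdgeSlot n → Bool) (σ : Equiv.Perm (Fin n)) :
    (graphOf y).map (σ⁻¹).toEmbedding = graphOf (y ∘ actEdge σ) := by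
  ext a b
  rw [SimpleGraph.map_adj]
  constructor
  · rintro ⟨u, v, huv, rfl, rfl⟩
    apply (adj_comp y σ _ _).mpr
    simpa using huv
  · intro h
    refine ⟨σ a, σ b, (adj_comp y σ _ _).mp h, by simp, by simp⟩

open Classical in
/-- the Boolean function -/
noncomputable def fP {n : ℕ} (P : Set (SimpleGraph (Fin n))) (ω : EdgeSlot n → Bool) : Bool :=
  decide (graphOf ω ∈ P)

lemma gnp_eq {n : ℕ} (P : Set (SimpleGraph (Fin n))) (p : ℝ) :
    gnpProb n p P = Ex p (fun x => bv (fP P x)) := by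
  classical
  unfold gnpProb
  rw [bernoulliProb_eq_Ex]
  apply Ex_congr
  intro x
  have hx : x ∈ {ω | graphOf ω ∈ P} ↔ graphOf x ∈ P := Iff.rfl
  by_cases h : graphOf x ∈ P
  · rw [if_pos (hx.mpr h)]
    simp [fP, h, bv]
  · rw [if_neg (mt hx.mp h)]
    simp [fP, h, bv]

/-- Let n ≥ 2 and let P be a family of simple graphs on n labelled vertices that is invariant under renaming vertices, closed under adding edges, non-empty and not everything; let 0 < ε < 1/2. If the binomial random graph with edge probability p ∈ [0, 1] lies in P with probability at least ε, then at every edge probability q ∈ [0, 1] with q ≥ p + 2^19 · log(1/(2ε)) / (log n)² it lies in P with probability at least 1 - ε: the threshold interval from ε to 1 - ε is at most that long. -/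
theorem result (n : ℕ) (hn : 2 ≤ n)
    (P : Set (SimpleGraph (Fin n)))
    (hsymm : ∀ σ : Equiv.Perm (Fin n), ∀ G : SimpleGraph (Fin n), G ∈ P → G.map σ.toEmbedding ∈ P)
    (hmono : ∀ G G' : SimpleGraph (Fin n), G ≤ G' → G ∈ P → G' ∈ P)
    (hne : P.Nonempty) (hnu : P ≠ Set.univ) (ε : ℝ) (hε0 : 0 < ε) (hε : ε < 1 / 2)
    (p q : ℝ) (hp0 : 0 ≤ p) (hp1 : p ≤ 1) (hq0 : 0 ≤ q) (hq1 : q ≤ 1)
    (hp : ε ≤ Crest.CombinatoricsR.RandomGraph.gnpProb n p P)
    (hq : p + 2 ^ 19 / Real.log n ^ 2 * Real.log (1 / (2 * ε)) ≤ q) :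
    1 - ε ≤ Crest.CombinatoricsR.RandomGraph.gnpProb n q P := by
  classical
  set f : (EdgeSlot n → Bool) → Bool := fP P with hfdef
  have hn2 : (2 : ℝ) ≤ n := by exact_mod_cast hn
  have hLpos : 0 < Real.log n := Real.log_pos (by linarith)
  set L := Real.log n with hL
  -- symmetry
  have hfsym : ∀ (σ : Equiv.Perm (Fin n)) (y : EdgeSlot n → Bool), f (y ∘ actEdge σ) = f y := by
    intro σ y
    have h1 : graphOf (y ∘ actEdge σ) ∈ P ↔ graphOf y ∈ P := by
      constructor
      · intro h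
        have := hsymm σ _ h
        rwa [graphOf_map] at this
      · intro h
        have := hsymm σ⁻¹ _ h
        rwa [graphOf_map_inv] at this
    simp only [hfdef, fP, h1]
  -- monotonicity
  have hfmono : ∀ x y : EdgeSlot n → Bool, (∀ i, x i ≤ y i) → f x ≤ f y := by
    intro x y hxy
    have h1 : graphOf x ≤ graphOf y := by
      intro a b hab
      rw [adj_iff] at hab ⊢
      obtain ⟨h, hω⟩ := hab
      refine ⟨h, ?_⟩
      have := hxy ⟨s(a, b), h⟩
      rw [hω] at this
      cases hy : y ⟨s(a, b), h⟩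
      · rw [hy] at this
        exact absurd this (by decide)
      · rfl
    by_cases hx : graphOf x ∈ P
    · have hy := hmono _ _ h1 hx
      simp [hfdef, fP, hx, hy]
    · have hfx : f x = false := by simp [hfdef, fP, hx]
      rw [hfx]
      exact Bool.false_le _
  -- the key inequality
  set c : ℝ := L ^ 2 / 2 ^ 17 with hc
  have hcpos : 0 < c := by positivity
  have hkey : ∀ s : ℝ, 0 < s → s < 1 →
      c * (Ex s (fun x => bv (f x)) * (1 - Ex s (fun x => bv (f x)))) ≤ ∑ e, Inf s f e := by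
    intro s hs0 hs1
    set Var := Ex s (fun x => bv (f x)) * (1 - Ex s (fun x => bv (f x))) with hVar
    have hI0 : 0 ≤ ∑ e, Inf s f e := Finset.sum_nonneg (fun e _ => Inf_nonneg hs0 hs1 f e)
    have hV0 : 0 ≤ Var := by
      rw [hVar, variance_eq hs0 hs1 f]
      exact Finset.sum_nonneg (fun S _ => sq_nonneg _)
    by_cases hcase : L ^ 2 ≤ 2 ^ 19
    · have hp' := poincare hs0 hs1 f
      have ht : s * (1 - s) ≤ 1 / 4 := by nlinarith [sq_nonneg (s - 1 / 2)]
      have hV : Var ≤ (∑ e, Inf s f e) / 4 := by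
        refine hp'.trans ?_
        nlinarith
      have hc4 : c ≤ 4 := by
        rw [hc, div_le_iff₀ (by positivity)]
        norm_num at hcase ⊢
        linarith
      calc c * Var ≤ 4 * Var := mul_le_mul_of_nonneg_right hc4 hV0
        _ ≤ ∑ e, Inf s f e := by linarith
    · push Not at hcase
      have hL724 : 724 ≤ L := by
        by_contra hcon
        push Not at hcon
        have : L ^ 2 < 724 ^ 2 := pow_lt_pow_left₀ hcon hLpos.le (by norm_num)
        norm_num at this hcase
        linarith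
      have hL3 : (23592960 : ℝ) * ((2 : ℕ) : ℝ) ≤ L ^ 3 := by
        have h1 : (724 : ℝ) ^ 3 ≤ L ^ 3 := pow_le_pow_left₀ (by norm_num) hL724 3
        norm_num at h1 ⊢
        linarith
      have hmain := var_final (vs := vsEdge (n := n)) (act := actEdge) vsEdge_act vsEdge_inj f
        hs0 hs1 hfsym (r := 2) (le_refl 2) vsEdge_card (by omega) hL3
      have hexp : L ^ (((2 : ℕ) : ℝ) / (((2 : ℕ) : ℝ) - 1)) = L ^ 2 := by
        norm_num
      rw [hexp] at hmain
      rw [← hVar] at hmain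
      push_cast at hmain
      rw [hc]
      have : L ^ 2 / 2 ^ 17 * Var = (Var * L ^ 2) / 2 ^ 17 := by ring
      rw [this, div_le_iff₀ (by positivity)]
      have h2 : (128 * 2 : ℝ) * ∑ e, Inf s f e ≤ (∑ e, Inf s f e) * 2 ^ 17 := by
        norm_num
        nlinarith
      linarith
  rw [gnp_eq] at hp ⊢
  apply threshold_ode f hfmono hcpos hkey hε0 hε hp0 hq1 hp
  have : 4 / c = 2 ^ 19 / L ^ 2 := by
    rw [hc]
    field_simp
    norm_num
  rw [this]
  exact hq

end Crest.Agent.S0077
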