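import Crest.Statements.S0078
import Crest.Agent.Lib.SharpMain

set_option autoImplicit false
open Crest Crest.CombinatoricsR

namespace Crest.Agent.S0078

open Crest.CombinatoricsR.HypergraphCube Crest.Agent.SharpLib

/-- the action on slots, as a permutation. -/
def actSlot {n r : ℕ} (σ : Equiv.Perm (Fin n)) : Equiv.Perm (HyperedgeSlot n r) where
  toFun := relabelSlot σ
  invFun := relabelSlot σ⁻¹
  left_inv := by
    intro e
    apply Subtype.ext
    simp [relabelSlot, Finset.map_map]
  right_inv := by
    intro e
    apply Subtype.ext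
    simp [relabelSlot, Finset.map_map]

lemma probTrue_eq {n r : ℕ} (p : ℝ) (f : (HyperedgeSlot n r → Bool) → Bool) :
    probTrue p f = Ex p (fun x => bv (f x)) := by
  classical
  unfold probTrue
  rw [bernoulliProb_eq_Ex]
  apply Ex_congr
  intro x
  have hx : x ∈ {x | f x = true} ↔ f x = true := Iff.rfl
  by_cases h : f x = true
  · rw [if_pos (hx.mpr h), h]; simp [bv]
  · rw [if_neg (mt hx.mp h)]
    have h2 : f x = false := by simpa using h
    rw [h2]; simp [bv]

lemma totalInfluence_eq {n r : ℕ} (p : ℝ) (f : (HyperedgeSlot n r → Bool) → Bool) :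
    totalInfluence p f = ∑ e, Inf p f e := by
  unfold totalInfluence pivotalInfluence
  exact Finset.sum_congr rfl (fun e _ => pivotal_eq_Inf p f e)

/-- For every r ≥ 3 there is a real constant C such that for all n ≥ r, all 0 < p < 1 and every Boolean function f of the simple r-uniform hypergraph on n labelled vertices that is invariant under renaming the vertices (no monotonicity assumed), the variance of f under independent edge-coins of bias p, namely P(f = true) · (1 - P(f = true)), is at most C · (log n)^(-r/(r-1)) times the total pivotal influence of f at bias p (natural logarithm). -/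
theorem result (r : ℕ) (hr : 3 ≤ r) :
    ∃ C : ℝ, ∀ n : ℕ, r ≤ n → ∀ p : ℝ, 0 < p → p < 1 →
      ∀ f : (Crest.CombinatoricsR.HypergraphCube.HyperedgeSlot n r → Bool) → Bool,
        Crest.CombinatoricsR.HypergraphCube.IsSymmetric f →
          Crest.CombinatoricsR.HypergraphCube.probTrue p f *
              (1 - Crest.CombinatoricsR.HypergraphCube.probTrue p f) ≤
            C / Real.log n ^ ((r : ℝ) / ((r : ℝ) - 1)) *
              Crest.CombinatoricsR.HypergraphCube.totalInfluence p f := by
  classical
  have hrR : (3 : ℝ) ≤ r := by exact_mod_cast hr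
  set q : ℝ := (r : ℝ) / ((r : ℝ) - 1) with hq
  have hq0 : 0 < q := by
    rw [hq]; apply div_pos <;> linarith
  set Ls : ℝ := 23592960 * r with hLs
  have hLs1 : 1 ≤ Ls := by rw [hLs]; linarith
  refine ⟨128 * r + Ls ^ q / 4, ?_⟩
  intro n hn p h0 h1 f hf
  rw [probTrue_eq, totalInfluence_eq]
  set I := ∑ e, Inf p f e with hI
  have hI0 : 0 ≤ I := Finset.sum_nonneg (fun e _ => Inf_nonneg h0 h1 f e)
  set Var := Ex p (fun x => bv (f x)) * (1 - Ex p (fun x => bv (f x))) with hVar
  have hn3 : (3 : ℝ) ≤ n := by
    have : 3 ≤ n := hr.trans hn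
    exact_mod_cast this
  have hLpos : 0 < Real.log n := Real.log_pos (by linarith)
  have hLq : 0 < Real.log n ^ q := Real.rpow_pos_of_pos hLpos _
  have hLsq : 0 ≤ Ls ^ q := Real.rpow_nonneg (by linarith) _
  have hrpos : (0 : ℝ) ≤ 128 * r := by positivity
  rw [div_mul_eq_mul_div, le_div_iff₀ hLq]
  by_cases hcase : Ls ≤ Real.log n
  · -- large `log n`
    have hL : (23592960 : ℝ) * r ≤ Real.log n ^ 3 := by
      have h3 : Ls ^ 1 ≤ Ls ^ 3 := pow_le_pow_right₀ hLs1 (by norm_num)
      have h4 : Ls ^ 3 ≤ Real.log n ^ 3 := pow_le_pow_left₀ (by linarith) hcase 3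
      rw [pow_one] at h3
      linarith
    have hmain := var_final (vs := fun e : HyperedgeSlot n r => e.1) (act := actSlot)
      (fun σ e => by simp [actSlot, relabelSlot, Finset.map_eq_image])
      Subtype.val_injective f h0 h1 (fun σ y => hf σ y) (r := r) (by omega) (fun e => e.2)
      (by omega) hL
    refine hmain.trans ?_
    rw [← hI]
    have : 0 ≤ Ls ^ q / 4 * I := by positivity
    nlinarith
  · -- small `log n`
    push Not at hcase
    have hp := poincare h0 h1 f
    have ht : p * (1 - p) ≤ 1 / 4 := by nlinarith [sq_nonneg (p - 1 / 2)]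
    have hV : Var ≤ I / 4 := by
      refine hp.trans ?_
      nlinarith
    have hLqle : Real.log n ^ q ≤ Ls ^ q := Real.rpow_le_rpow hLpos.le hcase.le hq0.le
    have hV0 : 0 ≤ Var := by
      rw [hVar, variance_eq h0 h1 f]
      exact Finset.sum_nonneg (fun S _ => sq_nonneg _)
    calc Var * Real.log n ^ q ≤ I / 4 * Ls ^ q := mul_le_mul hV hLqle hLq.le (by positivity)
      _ = Ls ^ q / 4 * I := by ring
      _ ≤ (128 * r + Ls ^ q / 4) * I := by nlinarith

end Crest.Agent.S0078
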