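-- Statement S0096: see Crest/Templates/S0096.lean.txt. The proof: helper84's blueprint, Crest/Agent/TriRL/.
import Crest.Statements.S0096
import Crest.Agent.TriRL.SharpAdapter
import Crest.Agent.TriRL.TB

set_option autoImplicit false
open Crest Crest.AnalysisR

namespace Crest.Agent.S0096

/-- There is an absolute constant C such that for every integer n ≥ 1 and all complex F, G on ℝ × ℝ in L³ (Lebesgue measure), the disjoint-annulus count annulusCount n F G (pointwise supremum of ∑_j ‖B_{ε_j,R_j}(F,G)‖ over at most n rational annuli 0 < ε_j < R_j with pairwise disjoint open intervals, B the truncated triangular Hilbert transform) has L^{3/2} quasi-norm (∫ S^{3/2})^{2/3} at most C √n log(2+n) ‖F‖₃ ‖G‖₃. -/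
theorem result :
    ∃ C : ℝ, ∀ n : ℕ, 1 ≤ n → ∀ F G : ℝ × ℝ → ℂ,
      MeasureTheory.MemLp F 3 MeasureTheory.volume → MeasureTheory.MemLp G 3 MeasureTheory.volume →
        (∫⁻ z, Crest.AnalysisR.annulusCount n F G z ^ (3 / 2 : ℝ)) ^ (2 / 3 : ℝ) ≤
          ENNReal.ofReal (C * Real.sqrt n * Real.log (2 + n)) * MeasureTheory.eLpNorm F 3 MeasureTheory.volume *
            MeasureTheory.eLpNorm G 3 MeasureTheory.volume := by
  obtain ⟨C₁, h1, hTB⟩ := Crest.Agent.TriRL.T_B
  exact Crest.Agent.TriH.CountFromDiscrete.result_of_discreteLarge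
    (Crest.Agent.TriRL.discreteCountBoundLarge_of hTB h1 Crest.Agent.TriRL.sharp_statement
      (by norm_num) Crest.Agent.TriRL.aniso_statement Crest.Agent.TriRL.Aniso.CA_nonneg)

end Crest.Agent.S0096
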