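/-
S0110 helper: duality certificate for optimality of a finite-range transport map.
-/
import Crest.Prelude.Def_QuadraticTransport

set_option autoImplicit false
open MeasureTheory Set Filter
open scoped ENNReal NNReal InnerProductSpace
open Crest.AnalysisR.OT

namespace Crest.Agent.S0110Cert

set_option linter.unusedSectionVars false

variable {F : Type*} [NormedAddCommGroup F] [InnerProductSpace ℝ F] [MeasurableSpace F]
  [BorelSpace F] [SecondCountableTopology F]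

/-- Duality certificate: `T` takes values in the finite set `V`, `pot` and `ψ` are conjugate on
`V`, with tightness along the graph of `T`. -/
structure Cert (ρ : Measure F) (V : Finset F) (pot ψ : F → ℝ) (R : ℝ) (T : F → F) : Prop where
  meas_pot : Measurable pot
  meas_psi : Measurable ψ
  ae_bd : ∀ᵐ x ∂ρ, ‖x‖ ≤ R ∧ |pot x| ≤ R ∧ ∀ v ∈ V, ⟪x, v⟫_ℝ ≤ pot x + ψ v
  meas_T : Measurable T
  T_mem : ∀ x, T x ∈ V
  T_tight : ∀ᵐ x ∂ρ, ⟪x, T x⟫_ℝ = pot x + ψ (T x)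

variable {ρ : Measure F} {V : Finset F} {pot ψ : F → ℝ} {R : ℝ} {T : F → F}

lemma ae_mem_of_map_eq (hT : Measurable T) (hTm : ∀ x, T x ∈ V) {S : F → F} (hS : Measurable S)
    (h : ρ.map S = ρ.map T) : ∀ᵐ x ∂ρ, S x ∈ V := by
  have hV : MeasurableSet ((V : Set F)ᶜ) := (V.finite_toSet.measurableSet).compl
  have h1 : (ρ.map S) ((V : Set F)ᶜ) = 0 := by
    rw [h, Measure.map_apply hT hV]
    have : T ⁻¹' ((V : Set F)ᶜ) = ∅ := by
      ext x; simpa using hTm x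
    rw [this]; simp
  rw [Measure.map_apply hS hV] at h1
  have := measure_eq_zero_iff_ae_notMem.mp h1
  filter_upwards [this] with x hx
  simpa using hx

lemma exists_bound (V : Finset F) (ψ : F → ℝ) : ∃ M : ℝ, 0 ≤ M ∧ ∀ v ∈ V, ‖v‖ ≤ M ∧ |ψ v| ≤ M := by
  refine ⟨∑ v ∈ V, (‖v‖ + |ψ v|), Finset.sum_nonneg fun _ _ => by positivity, fun v hv => ?_⟩
  have := Finset.single_le_sum (f := fun v => ‖v‖ + |ψ v|) (fun _ _ => by positivity) hv
  constructor <;> nlinarith [norm_nonneg v, abs_nonneg (ψ v)]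

lemma sq_norm_sub_eq (x v : F) (p q : ℝ) :
    ‖x - v‖ ^ 2 = (‖x‖ ^ 2 - 2 * p) + (‖v‖ ^ 2 - 2 * q) + 2 * (p + q - ⟪x, v⟫_ℝ) := by
  rw [norm_sub_sq_real]; ring

section main
variable [IsProbabilityMeasure ρ] (c : Cert ρ V pot ψ R T)
include c

lemma integrable_A : Integrable (fun x => ‖x‖ ^ 2 - 2 * pot x) ρ := by
  refine Integrable.of_bound (C := R ^ 2 + 2 * R) ?_ ?_
  · exact ((continuous_norm.measurable.pow_const 2).sub
      (c.meas_pot.const_mul 2)).aestronglyMeasurable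
  · filter_upwards [c.ae_bd] with x hx
    obtain ⟨h1, h2, -⟩ := hx
    rw [Real.norm_eq_abs]
    have h3 : |‖x‖ ^ 2| ≤ R ^ 2 := by
      rw [abs_of_nonneg (by positivity)]
      gcongr
    calc |‖x‖ ^ 2 - 2 * pot x| ≤ |‖x‖ ^ 2| + |2 * pot x| := abs_sub _ _
      _ ≤ R ^ 2 + 2 * R := by
        rw [abs_mul, abs_of_nonneg (by norm_num : (0:ℝ) ≤ 2)]; linarith

lemma integrable_B {S : F → F} (hS : Measurable S) (hSV : ∀ᵐ x ∂ρ, S x ∈ V) :
    Integrable (fun x => ‖S x‖ ^ 2 - 2 * ψ (S x)) ρ := by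
  obtain ⟨M, hM0, hM⟩ := exists_bound V ψ
  refine Integrable.of_bound (C := M ^ 2 + 2 * M) ?_ ?_
  · exact ((hS.norm.pow_const 2).sub
      ((c.meas_psi.comp hS).const_mul 2)).aestronglyMeasurable
  · filter_upwards [hSV] with x hx
    obtain ⟨h1, h2⟩ := hM _ hx
    rw [Real.norm_eq_abs]
    have h3 : |‖S x‖ ^ 2| ≤ M ^ 2 := by
      rw [abs_of_nonneg (by positivity)]
      gcongr
    calc |‖S x‖ ^ 2 - 2 * ψ (S x)| ≤ |‖S x‖ ^ 2| + |2 * ψ (S x)| := abs_sub _ _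
      _ ≤ M ^ 2 + 2 * M := by
        rw [abs_mul, abs_of_nonneg (by norm_num : (0:ℝ) ≤ 2)]; linarith

lemma integrable_gap {S : F → F} (hS : Measurable S) (hSV : ∀ᵐ x ∂ρ, S x ∈ V) :
    Integrable (fun x => pot x + ψ (S x) - ⟪x, S x⟫_ℝ) ρ := by
  obtain ⟨M, hM0, hM⟩ := exists_bound V ψ
  refine Integrable.of_bound (C := R + M + R * M) ?_ ?_
  · exact ((c.meas_pot.add (c.meas_psi.comp hS)).sub
      (measurable_id.inner hS)).aestronglyMeasurable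
  · filter_upwards [hSV, c.ae_bd] with x hx hb
    obtain ⟨h1, h2⟩ := hM _ hx
    obtain ⟨h3, h4, -⟩ := hb
    rw [Real.norm_eq_abs]
    have h5 : |⟪x, S x⟫_ℝ| ≤ R * M := by
      calc |⟪x, S x⟫_ℝ| ≤ ‖x‖ * ‖S x‖ := abs_real_inner_le_norm _ _
        _ ≤ R * M := by gcongr; exact le_trans (norm_nonneg _) h3
    calc |pot x + ψ (S x) - ⟪x, S x⟫_ℝ| ≤ |pot x + ψ (S x)| + |⟪x, S x⟫_ℝ| := abs_sub _ _
      _ ≤ |pot x| + |ψ (S x)| + |⟪x, S x⟫_ℝ| := by gcongr; exact abs_add_le _ _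
      _ ≤ R + M + R * M := by linarith

lemma integrable_cost {S : F → F} (hS : Measurable S) (hSV : ∀ᵐ x ∂ρ, S x ∈ V) :
    Integrable (fun x => ‖x - S x‖ ^ 2) ρ := by
  have h := ((integrable_A c).add (integrable_B c hS hSV)).add
    ((integrable_gap c hS hSV).const_mul 2)
  refine h.congr (Eventually.of_forall fun x => ?_)
  simp only [Pi.add_apply]
  rw [sq_norm_sub_eq x (S x) (pot x) (ψ (S x))]

lemma integral_cost {S : F → F} (hS : Measurable S) (hSV : ∀ᵐ x ∂ρ, S x ∈ V) :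
    ∫ x, ‖x - S x‖ ^ 2 ∂ρ = (∫ x, (‖x‖ ^ 2 - 2 * pot x) ∂ρ)
      + (∫ x, (‖S x‖ ^ 2 - 2 * ψ (S x)) ∂ρ)
      + 2 * ∫ x, (pot x + ψ (S x) - ⟪x, S x⟫_ℝ) ∂ρ := by
  have hA := integrable_A c
  have hB := integrable_B c hS hSV
  have hG := integrable_gap c hS hSV
  have hAB : Integrable (fun x => (‖x‖ ^ 2 - 2 * pot x) + (‖S x‖ ^ 2 - 2 * ψ (S x))) ρ := hA.add hB
  have hG2 : Integrable (fun x => 2 * (pot x + ψ (S x) - ⟪x, S x⟫_ℝ)) ρ := hG.const_mul 2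
  rw [← integral_add hA hB, ← integral_const_mul, ← integral_add hAB hG2]
  congr 1
  ext x
  rw [sq_norm_sub_eq x (S x) (pot x) (ψ (S x))]

lemma integral_law {S : F → F} (hS : Measurable S) (h : ρ.map S = ρ.map T) :
    ∫ x, (‖S x‖ ^ 2 - 2 * ψ (S x)) ∂ρ = ∫ x, (‖T x‖ ^ 2 - 2 * ψ (T x)) ∂ρ := by
  have hf : Measurable (fun v : F => ‖v‖ ^ 2 - 2 * ψ v) :=
    (continuous_norm.measurable.pow_const 2).sub (c.meas_psi.const_mul 2)
  have h1 := integral_map (μ := ρ) hS.aemeasurable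
    (f := fun v : F => ‖v‖ ^ 2 - 2 * ψ v) hf.aestronglyMeasurable
  have h2 := integral_map (μ := ρ) c.meas_T.aemeasurable
    (f := fun v : F => ‖v‖ ^ 2 - 2 * ψ v) hf.aestronglyMeasurable
  rw [← h1, ← h2, h]

lemma lintegral_cost_eq {S : F → F} (hS : Measurable S) (hSV : ∀ᵐ x ∂ρ, S x ∈ V) :
    ∫⁻ x, ‖x - S x‖ₑ ^ 2 ∂ρ = ENNReal.ofReal (∫ x, ‖x - S x‖ ^ 2 ∂ρ) := by
  rw [ofReal_integral_eq_lintegral_ofReal (integrable_cost c hS hSV)
    (Eventually.of_forall fun x => by positivity)]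
  congr 1
  ext x
  rw [ENNReal.ofReal_pow (norm_nonneg _), ofReal_norm]

lemma gap_nonneg {S : F → F} (hSV : ∀ᵐ x ∂ρ, S x ∈ V) :
    ∀ᵐ x ∂ρ, 0 ≤ pot x + ψ (S x) - ⟪x, S x⟫_ℝ := by
  filter_upwards [hSV, c.ae_bd] with x hx hb
  have := hb.2.2 _ hx
  linarith

lemma integral_gap_T : ∫ x, (pot x + ψ (T x) - ⟪x, T x⟫_ℝ) ∂ρ = 0 := by
  have : (fun x => pot x + ψ (T x) - ⟪x, T x⟫_ℝ) =ᵐ[ρ] fun _ => (0:ℝ) := by
    filter_upwards [c.T_tight] with x hx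
    rw [hx]; ring
  rw [integral_congr_ae this]; simp

/-- `T` is optimal. -/
theorem isOptimal : IsOptimalMap ρ (ρ.map T) T := by
  refine ⟨c.meas_T, rfl, fun S hS h => ?_⟩
  have hSV := ae_mem_of_map_eq c.meas_T c.T_mem hS h
  have hTV : ∀ᵐ x ∂ρ, T x ∈ V := Eventually.of_forall c.T_mem
  rw [lintegral_cost_eq c hS hSV, lintegral_cost_eq c c.meas_T hTV]
  apply ENNReal.ofReal_le_ofReal
  rw [integral_cost c hS hSV, integral_cost c c.meas_T hTV, integral_law c hS h, integral_gap_T c]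
  have : 0 ≤ ∫ x, (pot x + ψ (S x) - ⟪x, S x⟫_ℝ) ∂ρ := integral_nonneg_of_ae (gap_nonneg c hSV)
  linarith

/-- Every optimal map with the same law is tight a.e. -/
theorem tight_of_optimal {S : F → F} (hS : IsOptimalMap ρ (ρ.map T) S) :
    ∀ᵐ x ∂ρ, S x ∈ V ∧ ⟪x, S x⟫_ℝ = pot x + ψ (S x) := by
  have hSm := hS.1
  have h := hS.2.1
  have hSV := ae_mem_of_map_eq c.meas_T c.T_mem hSm h
  have hTV : ∀ᵐ x ∂ρ, T x ∈ V := Eventually.of_forall c.T_mem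
  have hle := hS.2.2 T c.meas_T rfl
  rw [lintegral_cost_eq c hS.1 hSV, lintegral_cost_eq c c.meas_T hTV] at hle
  have hT0 : 0 ≤ ∫ x, ‖x - T x‖ ^ 2 ∂ρ := integral_nonneg fun x => by positivity
  have hS0 : 0 ≤ ∫ x, ‖x - S x‖ ^ 2 ∂ρ := integral_nonneg fun x => by positivity
  have hle' := (ENNReal.ofReal_le_ofReal_iff hT0).mp hle
  rw [integral_cost c hSm hSV, integral_cost c c.meas_T hTV, integral_law c hSm h,
    integral_gap_T c] at hle'
  have hg0 : 0 ≤ ∫ x, (pot x + ψ (S x) - ⟪x, S x⟫_ℝ) ∂ρ :=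
    integral_nonneg_of_ae (gap_nonneg c hSV)
  have hg : ∫ x, (pot x + ψ (S x) - ⟪x, S x⟫_ℝ) ∂ρ = 0 := by linarith
  have := (integral_eq_zero_iff_of_nonneg_ae (gap_nonneg c hSV) (integrable_gap c hSm hSV)).mp hg
  filter_upwards [this, hSV] with x hx hx2
  refine ⟨hx2, ?_⟩
  simp only [Pi.zero_apply] at hx
  linarith

end main

end Crest.Agent.S0110Cert
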