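/-
S0110 helper: the cube, box masses, the coordinate reflection.
-/
import Crest.Agent.S0110Cert

set_option autoImplicit false
open MeasureTheory Set Filter
open scoped ENNReal NNReal InnerProductSpace
open Crest.AnalysisR.OT

namespace Crest.Agent.S0110Box

variable {d : ℕ}

abbrev E (d : ℕ) := EuclideanSpace ℝ (Fin d)

/-- the cube -/
abbrev Q (d : ℕ) : Set (E d) := {x | ∀ i, |x i| ≤ 1}

/-- the uniform measure on the cube -/
noncomputable abbrev rho (d : ℕ) : Measure (E d) := uniformProbOn (Q d)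

lemma continuous_coord (i : Fin d) : Continuous (fun x : E d => x i) := by fun_prop

lemma measurable_coord (i : Fin d) : Measurable (fun x : E d => x i) :=
  (continuous_coord i).measurable

lemma measurableSet_Q : MeasurableSet (Q d) := by
  have : Q d = ⋂ i, {x : E d | |x i| ≤ 1} := by ext x; simp
  rw [this]
  exact MeasurableSet.iInter fun i =>
    measurableSet_le (continuous_abs.comp (continuous_coord i)).measurable measurable_const

lemma volume_boxPi (S : Fin d → Set ℝ) (hS : ∀ i, MeasurableSet (S i)) :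
    volume {x : E d | ∀ j, x j ∈ S j} = ∏ j, volume (S j) := by
  have hp := PiLp.volume_preserving_ofLp (Fin d)
  have h1 : {x : E d | ∀ j, x j ∈ S j} =
      (WithLp.ofLp : E d → (Fin d → ℝ)) ⁻¹' (Set.pi Set.univ S) := by
    ext x; simp
  rw [h1, hp.measure_preimage (MeasurableSet.univ_pi hS).nullMeasurableSet]
  exact volume_pi_pi S

lemma volume_Icc_two : volume (Icc (-1:ℝ) 1) = 2 := by
  rw [Real.volume_Icc]; norm_num

lemma mem_Q_iff {x : E d} : x ∈ Q d ↔ ∀ j, x j ∈ Icc (-1:ℝ) 1 := by
  simp [abs_le, Set.mem_Icc]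

lemma rho_box {i0 i1 : Fin d} (hne : i0 ≠ i1) {s t : Set ℝ} (hs : MeasurableSet s)
    (ht : MeasurableSet t) :
    rho d {x | x i0 ∈ s ∧ x i1 ∈ t} =
      (2⁻¹ * volume (s ∩ Icc (-1:ℝ) 1)) * (2⁻¹ * volume (t ∩ Icc (-1:ℝ) 1)) := by
  classical
  have hm : MeasurableSet {x : E d | x i0 ∈ s ∧ x i1 ∈ t} :=
    (measurable_coord i0 hs).inter (measurable_coord i1 ht)
  have hQ : volume (Q d) = ∏ _j : Fin d, (2:ℝ≥0∞) := by
    have := volume_boxPi (d := d) (fun _ => Icc (-1:ℝ) 1) (fun _ => measurableSet_Icc)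
    simp only [volume_Icc_two] at this
    rw [← this]
    congr 1
    ext x
    exact mem_Q_iff
  let S : Fin d → Set ℝ := fun j =>
    (if j = i0 then s else if j = i1 then t else univ) ∩ Icc (-1:ℝ) 1
  have hS : ∀ j, MeasurableSet (S j) := by
    intro j
    refine MeasurableSet.inter ?_ measurableSet_Icc
    split_ifs
    · exact hs
    · exact ht
    · exact MeasurableSet.univ
  have hA : {x : E d | x i0 ∈ s ∧ x i1 ∈ t} ∩ Q d = {x : E d | ∀ j, x j ∈ S j} := by
    ext x
    simp only [mem_inter_iff, mem_ofPred_eq, S]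
    constructor
    · rintro ⟨⟨h0, h1⟩, hx⟩ j
      refine ⟨?_, mem_Q_iff.mp hx j⟩
      split_ifs with h2 h3
      · rw [h2]; exact h0
      · rw [h3]; exact h1
      · trivial
    · intro h
      refine ⟨⟨?_, ?_⟩, mem_Q_iff.mpr fun j => (h j).2⟩
      · have := (h i0).1; simpa using this
      · have := (h i1).1; simpa [hne.symm] using this
  have h1 : rho d {x | x i0 ∈ s ∧ x i1 ∈ t} = (volume (Q d))⁻¹ * ∏ j, volume (S j) := by
    simp only [rho, uniformProbOn, Measure.smul_apply, smul_eq_mul]
    rw [Measure.restrict_apply hm, hA, volume_boxPi S hS]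
  rw [h1, hQ, ENNReal.prod_inv_distrib (by simp [Set.Pairwise]), ← Finset.prod_mul_distrib]
  rw [Finset.prod_eq_mul i0 i1 hne]
  · simp [S, hne.symm]
  · intro j _ hj
    have h2 : S j = Icc (-1:ℝ) 1 := by
      simp [S, hj.1, hj.2]
    rw [h2, volume_Icc_two]
    exact ENNReal.inv_mul_cancel (by simp) (by simp)
  · simp
  · simp

lemma rho_isProb {i0 i1 : Fin d} (hne : i0 ≠ i1) : IsProbabilityMeasure (rho d) := by
  constructor
  have := rho_box hne (s := univ) (t := univ) MeasurableSet.univ MeasurableSet.univ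
  simp only [mem_univ, and_self, ofPred_true, univ_inter, volume_Icc_two] at this
  rw [this, ENNReal.inv_mul_cancel (by simp) (by simp)]
  simp

lemma ae_mem_Q : ∀ᵐ x ∂(rho d), x ∈ Q d := by
  have : rho d (Q d)ᶜ = 0 := by
    simp only [rho, uniformProbOn, Measure.smul_apply, smul_eq_mul]
    rw [Measure.restrict_apply measurableSet_Q.compl]
    simp
  exact measure_eq_zero_iff_ae_notMem.mp this |>.mono fun x hx => by simpa using hx

/-! the reflection -/

/-- coordinate reflection -/
noncomputable def refl (i0 : Fin d) : E d ≃ₗᵢ[ℝ] E d :=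
  LinearIsometryEquiv.piLpCongrRight 2
    (fun i => if i = i0 then LinearIsometryEquiv.neg ℝ else LinearIsometryEquiv.refl ℝ ℝ)

lemma refl_apply_same (i0 : Fin d) (x : E d) : refl i0 x i0 = - x i0 := by
  simp [refl]

lemma refl_apply_ne {i0 j : Fin d} (hj : j ≠ i0) (x : E d) : refl i0 x j = x j := by
  simp [refl, hj]

lemma abs_refl_apply (i0 j : Fin d) (x : E d) : |refl i0 x j| = |x j| := by
  by_cases h : j = i0
  · subst h; rw [refl_apply_same, abs_neg]
  · rw [refl_apply_ne h]

lemma refl_preimage_Q (i0 : Fin d) : (refl i0) ⁻¹' (Q d) = Q d := by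
  ext x
  simp [abs_refl_apply]

lemma rho_map_refl (i0 : Fin d) : (rho d).map (refl i0) = rho d := by
  have hmp : MeasurePreserving (refl i0) volume volume := (refl i0).measurePreserving
  ext A hA
  rw [Measure.map_apply hmp.measurable hA]
  simp only [rho, uniformProbOn, Measure.smul_apply, smul_eq_mul]
  rw [Measure.restrict_apply (hmp.measurable hA), Measure.restrict_apply hA]
  congr 1
  have : (refl i0) ⁻¹' A ∩ Q d = (refl i0) ⁻¹' (A ∩ Q d) := by
    rw [preimage_inter, refl_preimage_Q]
  rw [this, hmp.measure_preimage (hA.inter measurableSet_Q).nullMeasurableSet]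

end Crest.Agent.S0110Box
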