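import Crest.Statements.S0110
import Crest.Agent.S0110Box

set_option autoImplicit false
open MeasureTheory
open scoped ENNReal NNReal
open Crest.AnalysisR.OT
open Crest Crest.AnalysisR Crest.AnalysisR.OT

namespace Crest.Agent.S0110

open Set Filter Crest.Agent.S0110Box Crest.Agent.S0110Cert
open scoped InnerProductSpace

variable {d : ℕ}

/-- the atom `(-a, -1, 0, …)` -/
noncomputable def y1 (i0 i1 : Fin d) (a : ℝ) : E d :=
  EuclideanSpace.single i0 (-a) + EuclideanSpace.single i1 (-1)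

/-- the atom `(0, 1, 0, …)` -/
noncomputable def y2 (i1 : Fin d) : E d := EuclideanSpace.single i1 1

lemma inner_y1 (i0 i1 : Fin d) (a : ℝ) (x : E d) : ⟪x, y1 i0 i1 a⟫_ℝ = -a * x i0 - x i1 := by
  simp [y1, inner_add_right, EuclideanSpace.inner_single_right]
  ring

lemma inner_y2 (i1 : Fin d) (x : E d) : ⟪x, y2 i1⟫_ℝ = x i1 := by
  simp [y2, EuclideanSpace.inner_single_right]

lemma y1_apply (i0 i1 j : Fin d) (a : ℝ) :
    y1 i0 i1 a j = (if j = i0 then -a else 0) + (if j = i1 then -1 else 0) := by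
  simp [y1]

lemma y2_apply (i1 j : Fin d) : y2 i1 j = if j = i1 then 1 else 0 := by
  simp [y2]

lemma y1_ne_zero {i0 i1 : Fin d} (hne : i0 ≠ i1) (a : ℝ) : y1 i0 i1 a ≠ 0 := by
  intro h
  have := congrArg (fun v : E d => v i1) h
  simp [y1_apply, hne.symm] at this

lemma y2_ne_zero (i1 : Fin d) : y2 i1 ≠ 0 := by
  intro h
  have := congrArg (fun v : E d => v i1) h
  simp [y2_apply] at this

lemma y2_ne_y1 {i0 i1 : Fin d} (hne : i0 ≠ i1) (a : ℝ) : y2 i1 ≠ y1 i0 i1 a := by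
  intro h
  have := congrArg (fun v : E d => v i1) h
  simp only [y1_apply, y2_apply, if_true, hne.symm, if_false] at this
  norm_num at this

/-- the affine function of the atom `y1`. -/
def val1 (i0 i1 : Fin d) (a h : ℝ) (x : E d) : ℝ := -a * x i0 - x i1 - (1 - h)

/-- the cell index -/
noncomputable def idx (i0 i1 : Fin d) (a h : ℝ) (x : E d) : Fin 3 :=
  if 0 ≤ x i1 then 2 else if 0 < val1 i0 i1 a h x then 1 else 0

/-- the atoms -/
noncomputable def site (i0 i1 : Fin d) (a : ℝ) : Fin 3 → E d := ![0, y1 i0 i1 a, y2 i1]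

/-- the Laguerre map -/
noncomputable def TT (i0 i1 : Fin d) (a h : ℝ) (x : E d) : E d :=
  site i0 i1 a (idx i0 i1 a h x)

/-- the convex potential -/
noncomputable def pot (i0 i1 : Fin d) (a h : ℝ) (x : E d) : ℝ :=
  max (max 0 (val1 i0 i1 a h x)) (x i1)

/-- the dual potential on the atoms -/
noncomputable def psi (i0 i1 : Fin d) (a h : ℝ) (v : E d) : ℝ :=
  open Classical in if v = y1 i0 i1 a then 1 - h else 0

open Classical in
/-- the atoms as a finset -/
noncomputable def VV (i0 i1 : Fin d) (a : ℝ) : Finset (E d) := {0, y1 i0 i1 a, y2 i1}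

lemma mem_VV {i0 i1 : Fin d} {a : ℝ} {v : E d} :
    v ∈ VV i0 i1 a ↔ v = 0 ∨ v = y1 i0 i1 a ∨ v = y2 i1 := by
  simp [VV]

lemma measurable_val1 (i0 i1 : Fin d) (a h : ℝ) : Measurable (val1 i0 i1 a h) := by
  unfold val1
  exact (((measurable_coord i0).const_mul (-a)).sub (measurable_coord i1)).sub_const _

lemma measurable_idx (i0 i1 : Fin d) (a h : ℝ) : Measurable (idx i0 i1 a h) := by
  unfold idx
  refine Measurable.ite (measurableSet_le measurable_const (measurable_coord i1))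
    measurable_const (Measurable.ite ?_ measurable_const measurable_const)
  exact measurableSet_lt measurable_const (measurable_val1 i0 i1 a h)

lemma measurable_TT (i0 i1 : Fin d) (a h : ℝ) : Measurable (TT i0 i1 a h) :=
  (measurable_of_finite (site i0 i1 a)).comp (measurable_idx i0 i1 a h)

lemma measurable_pot (i0 i1 : Fin d) (a h : ℝ) : Measurable (pot i0 i1 a h) :=
  (measurable_const.max (measurable_val1 i0 i1 a h)).max (measurable_coord i1)

lemma measurable_psi (i0 i1 : Fin d) (a h : ℝ) : Measurable (psi i0 i1 a h) := by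
  classical
  unfold psi
  exact Measurable.ite (measurableSet_singleton _) measurable_const measurable_const

lemma psi_zero {i0 i1 : Fin d} (hne : i0 ≠ i1) (a h : ℝ) : psi i0 i1 a h 0 = 0 := by
  simp [psi, (y1_ne_zero hne a).symm]

lemma psi_y1 (i0 i1 : Fin d) (a h : ℝ) : psi i0 i1 a h (y1 i0 i1 a) = 1 - h := by
  simp [psi]

lemma psi_y2 {i0 i1 : Fin d} (hne : i0 ≠ i1) (a h : ℝ) : psi i0 i1 a h (y2 i1) = 0 := by
  simp [psi, y2_ne_y1 hne a]

lemma site_mem_VV (i0 i1 : Fin d) (a : ℝ) (k : Fin 3) : site i0 i1 a k ∈ VV i0 i1 a := by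
  rw [mem_VV]
  fin_cases k <;> simp [site]

lemma abs_coord_le {x : E d} (hx : x ∈ Q d) (j : Fin d) : -1 ≤ x j ∧ x j ≤ 1 := abs_le.mp (hx j)

lemma norm_le_of_mem_Q {x : E d} (hx : x ∈ Q d) : ‖x‖ ≤ d + 3 := by
  have h1 : ‖x‖ ^ 2 ≤ d := by
    rw [EuclideanSpace.real_norm_sq_eq]
    calc ∑ i, (x i) ^ 2 ≤ ∑ _i : Fin d, (1:ℝ) := by
          refine Finset.sum_le_sum fun i _ => ?_
          have := abs_coord_le hx i
          nlinarith
      _ = d := by simp
  have h2 : (0:ℝ) ≤ d := by positivity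
  nlinarith [norm_nonneg x]

section cert
variable {i0 i1 : Fin d} (hne : i0 ≠ i1) {a h : ℝ} (hh : 0 < h) (hh' : h ≤ 1 / 4) (ha : |a| ≤ h)

include hh hh' ha in
lemma abs_pot_le {x : E d} (hx : x ∈ Q d) : |pot i0 i1 a h x| ≤ d + 3 := by
  have h0 := abs_coord_le hx i0
  have h1 := abs_coord_le hx i1
  have ha' := abs_le.mp ha
  have hd : (0:ℝ) ≤ d := by positivity
  have h2 : -a * x i0 ≤ h := by nlinarith
  have h3 : - h ≤ -a * x i0 := by nlinarith
  unfold pot val1
  rw [abs_le]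
  constructor
  · have := le_max_right (max 0 (-a * x i0 - x i1 - (1 - h))) (x i1)
    linarith
  · refine max_le (max_le ?_ ?_) ?_ <;> linarith

include hne in
lemma cert_le (x : E d) {v : E d} (hv : v ∈ VV i0 i1 a) :
    ⟪x, v⟫_ℝ ≤ pot i0 i1 a h x + psi i0 i1 a h v := by
  rcases mem_VV.mp hv with rfl | rfl | rfl
  · rw [psi_zero hne, inner_zero_right, add_zero]
    exact le_trans (le_max_left _ _) (le_max_left _ _)
  · rw [psi_y1, inner_y1]
    have : val1 i0 i1 a h x ≤ pot i0 i1 a h x :=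
      le_trans (le_max_right _ _) (le_max_left _ _)
    unfold val1 at this
    linarith
  · rw [psi_y2 hne, inner_y2, add_zero]
    exact le_max_right _ _

include hne hh hh' ha in
lemma cert_tight {x : E d} (hx : x ∈ Q d) :
    ⟪x, TT i0 i1 a h x⟫_ℝ = pot i0 i1 a h x + psi i0 i1 a h (TT i0 i1 a h x) := by
  have h0 := abs_coord_le hx i0
  have h1 := abs_coord_le hx i1
  have ha' := abs_le.mp ha
  have h2 : -a * x i0 ≤ h := by nlinarith
  have h3 : - h ≤ -a * x i0 := by nlinarith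
  unfold TT idx
  by_cases c1 : 0 ≤ x i1
  · rw [if_pos c1]
    have e : site i0 i1 a 2 = y2 i1 := by simp [site]
    rw [e, psi_y2 hne, inner_y2, add_zero]
    unfold pot
    have : max 0 (val1 i0 i1 a h x) ≤ x i1 := by
      refine max_le c1 ?_
      unfold val1
      linarith
    rw [max_eq_right this]
  · rw [if_neg c1]
    push Not at c1
    by_cases c2 : 0 < val1 i0 i1 a h x
    · rw [if_pos c2]
      have e : site i0 i1 a 1 = y1 i0 i1 a := by simp [site]
      rw [e, psi_y1, inner_y1]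
      unfold pot
      rw [max_eq_right c2.le, max_eq_left (by linarith)]
      unfold val1
      ring
    · rw [if_neg c2]
      push Not at c2
      have e : site i0 i1 a 0 = 0 := by simp [site]
      rw [e, psi_zero hne, inner_zero_right]
      unfold pot
      rw [max_eq_left c2, max_eq_left c1.le]
      ring

include hne hh hh' ha in
/-- The duality certificate. -/
lemma cert : Cert (rho d) (VV i0 i1 a) (pot i0 i1 a h) (psi i0 i1 a h) (d + 3) (TT i0 i1 a h) where
  meas_pot := measurable_pot i0 i1 a h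
  meas_psi := measurable_psi i0 i1 a h
  ae_bd := by
    filter_upwards [ae_mem_Q] with x hx
    exact ⟨norm_le_of_mem_Q hx, abs_pot_le hh hh' ha hx, fun v hv => cert_le hne x hv⟩
  meas_T := measurable_TT i0 i1 a h
  T_mem := fun x => site_mem_VV i0 i1 a _
  T_tight := by
    filter_upwards [ae_mem_Q] with x hx
    exact cert_tight hne hh hh' ha hx

end cert

/-! ### the box where the two maps differ -/

/-- the box -/
def BB (i0 i1 : Fin d) (h : ℝ) : Set (E d) :=
  {x | x i0 ∈ Ioo (-1:ℝ) (-1/2) ∧ x i1 ∈ Ioo (-1 + h / 2) (-1 + 3 * h / 2)}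

lemma rho_BB {i0 i1 : Fin d} (hne : i0 ≠ i1) {h : ℝ} (hh : 0 < h) (hh' : h ≤ 1 / 4) :
    rho d (BB i0 i1 h) = ENNReal.ofReal (h / 8) := by
  unfold BB
  rw [rho_box hne measurableSet_Ioo measurableSet_Ioo]
  have e1 : Ioo (-1:ℝ) (-1/2) ∩ Icc (-1:ℝ) 1 = Ioo (-1:ℝ) (-1/2) := by
    apply inter_eq_left.mpr
    intro x hx
    exact ⟨hx.1.le, by linarith [hx.2]⟩
  have e2 : Ioo (-1 + h / 2) (-1 + 3 * h / 2) ∩ Icc (-1:ℝ) 1 = Ioo (-1 + h / 2) (-1 + 3 * h / 2) := by
    apply inter_eq_left.mpr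
    intro x hx
    exact ⟨by linarith [hx.1], by linarith [hx.2]⟩
  rw [e1, e2, Real.volume_Ioo, Real.volume_Ioo]
  have e3 : (2:ℝ≥0∞)⁻¹ = ENNReal.ofReal (2⁻¹) := by
    rw [ENNReal.ofReal_inv_of_pos (by norm_num)]; simp
  rw [e3, ← ENNReal.ofReal_mul (by norm_num), ← ENNReal.ofReal_mul (by norm_num),
    ← ENNReal.ofReal_mul (by norm_num)]
  congr 1
  norm_num
  ring

lemma tight_y1_of_BB {i0 i1 : Fin d} (hne : i0 ≠ i1) {h : ℝ} (hh : 0 < h) (hh' : h ≤ 1 / 4)
    {x : E d} (hx : x ∈ BB i0 i1 h) {v : E d} (hv : v ∈ VV i0 i1 h)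
    (htight : ⟪x, v⟫_ℝ = pot i0 i1 h h x + psi i0 i1 h h v) : v = y1 i0 i1 h := by
  obtain ⟨⟨h0a, h0b⟩, h1a, h1b⟩ := hx
  have hv1 : 0 < val1 i0 i1 h h x := by
    unfold val1
    nlinarith
  have hp : pot i0 i1 h h x = val1 i0 i1 h h x := by
    unfold pot
    rw [max_eq_right hv1.le, max_eq_left (by linarith)]
  rcases mem_VV.mp hv with rfl | rfl | rfl
  · rw [inner_zero_right, psi_zero hne, hp] at htight
    linarith
  · rfl
  · rw [inner_y2, psi_y2 hne, hp] at htight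
    linarith

lemma tight_zero_of_BB {i0 i1 : Fin d} (hne : i0 ≠ i1) {h : ℝ} (hh : 0 < h) (hh' : h ≤ 1 / 4)
    {x : E d} (hx : x ∈ BB i0 i1 h) {v : E d} (hv : v ∈ VV i0 i1 (-h))
    (htight : ⟪x, v⟫_ℝ = pot i0 i1 (-h) h x + psi i0 i1 (-h) h v) : v = 0 := by
  obtain ⟨⟨h0a, h0b⟩, h1a, h1b⟩ := hx
  have hv1 : val1 i0 i1 (-h) h x < 0 := by
    unfold val1
    nlinarith
  have hp : pot i0 i1 (-h) h x = 0 := by
    unfold pot
    rw [max_eq_left hv1.le, max_eq_left (by linarith)]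
  rcases mem_VV.mp hv with rfl | rfl | rfl
  · rfl
  · rw [inner_y1, psi_y1, hp] at htight
    unfold val1 at hv1
    exfalso
    linarith
  · rw [inner_y2, psi_y2 hne, hp] at htight
    exfalso
    linarith

lemma one_le_norm_y1 {i0 i1 : Fin d} (hne : i0 ≠ i1) (a : ℝ) : 1 ≤ ‖y1 i0 i1 a‖ := by
  have := PiLp.norm_apply_le (p := 2) (y1 i0 i1 a) i1
  simpa [y1_apply, hne.symm] using this

/-! ### laws -/

lemma val1_refl {i0 i1 : Fin d} (hne : i0 ≠ i1) (a h : ℝ) (x : E d) :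
    val1 i0 i1 (-a) h (refl i0 x) = val1 i0 i1 a h x := by
  unfold val1
  rw [refl_apply_same, refl_apply_ne hne.symm]
  ring

lemma idx_refl {i0 i1 : Fin d} (hne : i0 ≠ i1) (a h : ℝ) (x : E d) :
    idx i0 i1 (-a) h (refl i0 x) = idx i0 i1 a h x := by
  unfold idx
  rw [val1_refl hne, refl_apply_ne hne.symm]

lemma map_idx_neg {i0 i1 : Fin d} (hne : i0 ≠ i1) (a h : ℝ) :
    (rho d).map (idx i0 i1 (-a) h) = (rho d).map (idx i0 i1 a h) := by
  have h1 : idx i0 i1 a h = idx i0 i1 (-a) h ∘ (refl i0) := by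
    ext x
    simp only [Function.comp, idx_refl hne]
  rw [h1, ← Measure.map_map (measurable_idx _ _ _ _) (refl i0).continuous.measurable,
    rho_map_refl]

lemma map_eq_sum (ρ : Measure (E d)) [IsFiniteMeasure ρ] (J : E d → Fin 3) (hJ : Measurable J)
    (s : Fin 3 → E d) :
    ρ.map (fun x => s (J x)) =
      ∑ i, ENNReal.ofReal ((ρ (J ⁻¹' {i})).toReal) • Measure.dirac (s i) := by
  classical
  have hm : Measurable (fun x => s (J x)) := (measurable_of_finite s).comp hJ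
  ext A hA
  rw [Measure.map_apply hm hA, Measure.finsetSum_apply]
  have e1 : ∀ i, (ENNReal.ofReal ((ρ (J ⁻¹' {i})).toReal) • Measure.dirac (s i)) A =
      (ρ.map J) {i} * A.indicator 1 (s i) := by
    intro i
    rw [Measure.smul_apply, Measure.dirac_apply' _ hA, smul_eq_mul,
      ENNReal.ofReal_toReal (measure_ne_top _ _), Measure.map_apply hJ (measurableSet_singleton _)]
  simp_rw [e1]
  let F : Finset (Fin 3) := Finset.univ.filter (fun i => s i ∈ A)
  have e2 : (fun x => s (J x)) ⁻¹' A = J ⁻¹' (F : Set (Fin 3)) := by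
    ext x; simp [F]
  rw [e2, ← Measure.map_apply hJ F.finite_toSet.measurableSet,
    ← sum_measure_singleton (μ := ρ.map J) (s := F)]
  rw [Finset.sum_filter]
  refine Finset.sum_congr rfl fun i _ => ?_
  by_cases hi : s i ∈ A <;> simp [hi]

lemma site_injective {i0 i1 : Fin d} (hne : i0 ≠ i1) (a : ℝ) :
    Function.Injective (site i0 i1 a) := by
  intro k l hkl
  have h10 := y1_ne_zero hne a
  have h20 := y2_ne_zero i1
  have h21 := y2_ne_y1 hne a
  fin_cases k <;> fin_cases l <;> simp_all [site]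

lemma TT_eq_comp (i0 i1 : Fin d) (a h : ℝ) :
    TT i0 i1 a h = fun x => site i0 i1 a (idx i0 i1 a h x) := rfl

/-! positivity of the masses -/

lemma idx_zero_of {i0 i1 : Fin d} {a h : ℝ} (hh : 0 < h) (hh' : h ≤ 1 / 4) (ha : |a| ≤ h)
    {x : E d} (hx : x ∈ Q d) (h1 : x i1 ∈ Ioo (-1/2 : ℝ) 0) : idx i0 i1 a h x = 0 := by
  have h0 := abs_coord_le hx i0
  have ha' := abs_le.mp ha
  have h2 : -a * x i0 ≤ h := by nlinarith
  unfold idx
  rw [if_neg (not_le.mpr h1.2), if_neg]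
  unfold val1
  have := h1.1
  linarith

lemma idx_two_of {i0 i1 : Fin d} {a h : ℝ} {x : E d} (h1 : x i1 ∈ Ioo (0 : ℝ) 1) :
    idx i0 i1 a h x = 2 := by
  unfold idx
  rw [if_pos h1.1.le]

lemma idx_one_of {i0 i1 : Fin d} {h : ℝ} (hh : 0 < h) (hh' : h ≤ 1 / 4) {x : E d}
    (hx : x ∈ BB i0 i1 h) : idx i0 i1 h h x = 1 := by
  obtain ⟨⟨h0a, h0b⟩, h1a, h1b⟩ := hx
  unfold idx
  rw [if_neg (by linarith), if_pos]
  unfold val1
  nlinarith

lemma rho_pos_of_subset {A B : Set (E d)} (hAB : A ⊆ B) (hA : 0 < rho d A) : 0 < rho d B :=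
  lt_of_lt_of_le hA (measure_mono hAB)

lemma rho_idx_pos {i0 i1 : Fin d} (hne : i0 ≠ i1) {h : ℝ} (hh : 0 < h) (hh' : h ≤ 1 / 4)
    (k : Fin 3) : 0 < rho d (idx i0 i1 h h ⁻¹' {k}) := by
  have hprob := rho_isProb hne
  fin_cases k
  · -- the cell of `0`
    have hA : 0 < rho d ({x | x i0 ∈ univ ∧ x i1 ∈ Ioo (-1/2 : ℝ) 0} ∩ Q d) := by
      have e : rho d ({x | x i0 ∈ univ ∧ x i1 ∈ Ioo (-1/2 : ℝ) 0} ∩ Q d) =
          rho d {x | x i0 ∈ univ ∧ x i1 ∈ Ioo (-1/2 : ℝ) 0} :=
        measure_inter_conull (by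
          have : rho d (Q d)ᶜ = 0 := by
            have := ae_mem_Q (d := d)
            exact this
          exact this)
      rw [e, rho_box hne MeasurableSet.univ measurableSet_Ioo]
      have e2 : Ioo (-1/2 : ℝ) 0 ∩ Icc (-1:ℝ) 1 = Ioo (-1/2 : ℝ) 0 := by
        apply inter_eq_left.mpr
        intro x hx
        exact ⟨by linarith [hx.1], by linarith [hx.2]⟩
      rw [e2, univ_inter, volume_Icc_two, Real.volume_Ioo]
      simp
      norm_num
    refine lt_of_lt_of_le hA (measure_mono ?_)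
    rintro x ⟨⟨-, hx1⟩, hxQ⟩
    exact idx_zero_of hh hh' (by rw [abs_of_pos hh]) hxQ hx1
  · -- the cell of `y1`
    have hA : 0 < rho d (BB i0 i1 h) := by
      rw [rho_BB hne hh hh']
      simp [hh]
    refine lt_of_lt_of_le hA (measure_mono ?_)
    intro x hx
    exact idx_one_of hh hh' hx
  · -- the cell of `y2`
    have hA : 0 < rho d {x | x i0 ∈ univ ∧ x i1 ∈ Ioo (0 : ℝ) 1} := by
      rw [rho_box hne MeasurableSet.univ measurableSet_Ioo]
      have e2 : Ioo (0 : ℝ) 1 ∩ Icc (-1:ℝ) 1 = Ioo (0 : ℝ) 1 := by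
        apply inter_eq_left.mpr
        intro x hx
        exact ⟨by linarith [hx.1], by linarith [hx.2]⟩
      rw [e2, univ_inter, volume_Icc_two, Real.volume_Ioo]
      simp
    refine lt_of_lt_of_le hA (measure_mono ?_)
    rintro x ⟨-, hx1⟩
    exact idx_two_of hx1

/-- three-atomic law -/
lemma threeAtomic_TT {i0 i1 : Fin d} (hne : i0 ≠ i1) {a h : ℝ}
    (hpos : ∀ k, 0 < rho d (idx i0 i1 a h ⁻¹' {k})) :
    IsThreeAtomic ((rho d).map (TT i0 i1 a h)) := by
  have hprob := rho_isProb hne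
  refine ⟨site i0 i1 a, site_injective hne a,
    fun k => (rho d (idx i0 i1 a h ⁻¹' {k})).toReal, fun k => ?_, ?_⟩
  · exact ENNReal.toReal_pos (hpos k).ne' (measure_ne_top _ _)
  · exact map_eq_sum (rho d) (idx i0 i1 a h) (measurable_idx i0 i1 a h) (site i0 i1 a)

lemma rho_idx_neg {i0 i1 : Fin d} (hne : i0 ≠ i1) (a h : ℝ) (k : Fin 3) :
    rho d (idx i0 i1 (-a) h ⁻¹' {k}) = rho d (idx i0 i1 a h ⁻¹' {k}) := by
  rw [← Measure.map_apply (measurable_idx _ _ _ _) (measurableSet_singleton k),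
    ← Measure.map_apply (measurable_idx _ _ _ _) (measurableSet_singleton k), map_idx_neg hne]

lemma site_mem_Q {i0 i1 : Fin d} (hne : i0 ≠ i1) {a : ℝ} (ha : |a| ≤ 1) (k : Fin 3) :
    site i0 i1 a k ∈ Q d := by
  intro j
  fin_cases k
  · simp [site]
  · simp only [site, Fin.mk_one, Matrix.cons_val_one, Matrix.cons_val_zero, y1_apply]
    by_cases h0 : j = i0
    · subst h0
      simpa [hne] using ha
    · by_cases h1 : j = i1
      · subst h1
        simp [h0]
      · simp [h0, h1]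
  · simp only [site, Fin.reduceFinMk, Matrix.cons_val, y2_apply]
    by_cases h1 : j = i1 <;> simp [h1]

/-- the measure is a probability measure on the cube -/
lemma isProbOn {i0 i1 : Fin d} (hne : i0 ≠ i1) {a h : ℝ} (ha : |a| ≤ 1) :
    IsProbabilityOn (Q d) ((rho d).map (TT i0 i1 a h)) := by
  have hprob := rho_isProb hne
  refine ⟨Measure.isProbabilityMeasure_map (measurable_TT i0 i1 a h).aemeasurable, ?_⟩
  rw [Measure.map_apply (measurable_TT i0 i1 a h) measurableSet_Q.compl]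
  have : TT i0 i1 a h ⁻¹' (Q d)ᶜ = ∅ := by
    ext x
    simp only [mem_preimage, mem_compl_iff, mem_empty_iff_false, iff_false, not_not]
    exact site_mem_Q hne ha _
  rw [this]
  simp

/-! ### the coupling -/

/-- the coupling of the two laws, atom to atom -/
noncomputable def coup (i0 i1 : Fin d) (h : ℝ) : Measure (E d × E d) :=
  (rho d).map (fun x => (TT i0 i1 h h x, TT i0 i1 (-h) h (refl i0 x)))

lemma measurable_pairMap (i0 i1 : Fin d) (h : ℝ) :
    Measurable (fun x : E d => (TT i0 i1 h h x, TT i0 i1 (-h) h (refl i0 x))) :=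
  (measurable_TT i0 i1 h h).prodMk
    ((measurable_TT i0 i1 (-h) h).comp (refl i0).continuous.measurable)

lemma coup_isCoupling (i0 i1 : Fin d) (h : ℝ) :
    IsPairCoupling ((rho d).map (TT i0 i1 h h)) ((rho d).map (TT i0 i1 (-h) h)) (coup i0 i1 h) := by
  constructor
  · unfold coup
    rw [Measure.map_map measurable_fst (measurable_pairMap i0 i1 h)]
    rfl
  · unfold coup
    rw [Measure.map_map measurable_snd (measurable_pairMap i0 i1 h)]
    have : Prod.snd ∘ (fun x : E d => (TT i0 i1 h h x, TT i0 i1 (-h) h (refl i0 x))) =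
        TT i0 i1 (-h) h ∘ (refl i0) := rfl
    rw [this, ← Measure.map_map (measurable_TT _ _ _ _) (refl i0).continuous.measurable,
      rho_map_refl]

lemma norm_y1_sub {i0 i1 : Fin d} (h : ℝ) (hh : 0 < h) :
    ‖y1 i0 i1 h - y1 i0 i1 (-h)‖ = 2 * h := by
  have : y1 i0 i1 h - y1 i0 i1 (-h) = EuclideanSpace.single i0 (-(2 * h)) := by
    unfold y1
    ext j
    by_cases hj : j = i0 <;> simp [hj] <;> ring
  rw [this]
  simp [abs_of_pos hh]

lemma quadCost_coup {i0 i1 : Fin d} (hne : i0 ≠ i1) {h : ℝ} (hh : 0 < h) (hh' : h ≤ 1 / 4) :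
    quadCost (coup i0 i1 h) ≤ ENNReal.ofReal (4 * h ^ 3) := by
  unfold quadCost coup
  have hmeas : Measurable (fun p : E d × E d => ‖p.1 - p.2‖ₑ ^ 2) :=
    ((measurable_fst.sub measurable_snd).enorm).pow_const 2
  rw [lintegral_map hmeas (measurable_pairMap i0 i1 h)]
  let W : Set (E d) := {x | x i0 ∈ univ ∧ x i1 ∈ Iic (-1 + 2 * h)}
  have hW : MeasurableSet W := (measurable_coord i0 MeasurableSet.univ).inter
    (measurable_coord i1 measurableSet_Iic)
  have hle : ∀ᵐ x ∂(rho d), ‖TT i0 i1 h h x - TT i0 i1 (-h) h (refl i0 x)‖ₑ ^ 2 ≤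
      W.indicator (fun _ => ENNReal.ofReal (4 * h ^ 2)) x := by
    filter_upwards [ae_mem_Q] with x hx
    have e : TT i0 i1 (-h) h (refl i0 x) = site i0 i1 (-h) (idx i0 i1 h h x) := by
      unfold TT
      rw [idx_refl hne]
    rw [e]
    unfold TT
    by_cases c1 : idx i0 i1 h h x = 1
    · have hxW : x ∈ W := by
        refine ⟨trivial, ?_⟩
        unfold idx at c1
        have h0 := abs_coord_le hx i0
        by_cases c2 : 0 ≤ x i1
        · rw [if_pos c2] at c1
          exact absurd c1 (by decide)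
        · rw [if_neg c2] at c1
          by_cases c3 : 0 < val1 i0 i1 h h x
          · unfold val1 at c3
            simp only [mem_Iic]
            nlinarith
          · rw [if_neg c3] at c1
            exact absurd c1 (by decide)
      rw [Set.indicator_of_mem hxW, c1]
      have e1 : site i0 i1 h 1 = y1 i0 i1 h := by simp [site]
      have e2 : site i0 i1 (-h) 1 = y1 i0 i1 (-h) := by simp [site]
      rw [e1, e2, ← ofReal_norm, norm_y1_sub h hh, ← ENNReal.ofReal_pow (by positivity)]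
      apply ENNReal.ofReal_le_ofReal
      nlinarith
    · have e3 : site i0 i1 h (idx i0 i1 h h x) = site i0 i1 (-h) (idx i0 i1 h h x) := by
        generalize idx i0 i1 h h x = k at c1
        fin_cases k
        · simp [site]
        · exact absurd rfl c1
        · simp [site]
      rw [e3]
      simp
  refine le_trans (lintegral_mono_ae hle) ?_
  rw [lintegral_indicator_const hW]
  have hρW : rho d W = ENNReal.ofReal h := by
    simp only [W]
    rw [rho_box hne MeasurableSet.univ measurableSet_Iic]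
    have e2 : Iic (-1 + 2 * h) ∩ Icc (-1:ℝ) 1 = Icc (-1:ℝ) (-1 + 2 * h) := by
      ext t
      simp only [mem_inter_iff, mem_Iic, mem_Icc]
      constructor
      · rintro ⟨h1, h2, h3⟩; exact ⟨h2, h1⟩
      · rintro ⟨h1, h2⟩; exact ⟨h2, h1, by linarith⟩
    rw [e2, univ_inter, volume_Icc_two, Real.volume_Icc,
      ENNReal.inv_mul_cancel (by simp) (by simp), one_mul]
    have e3 : (2:ℝ≥0∞)⁻¹ = ENNReal.ofReal (2⁻¹) := by
      rw [ENNReal.ofReal_inv_of_pos (by norm_num)]; simp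
    rw [e3, ← ENNReal.ofReal_mul (by norm_num)]
    congr 1
    ring
  rw [hρW, mul_comm, ← ENNReal.ofReal_mul hh.le]
  apply ENNReal.ofReal_le_ofReal
  nlinarith

/-! ### choice of `h` -/

lemma exists_h (α : ℝ) (hα : 1 / 3 < α) (C : ℝ≥0) :
    ∃ h : ℝ, 0 < h ∧ h ≤ 1 / 4 ∧
      (C : ℝ≥0∞) * (ENNReal.ofReal (4 * h ^ 3)) ^ α < ENNReal.ofReal (h / 8) := by
  have hα0 : 0 < α := by linarith
  set β : ℝ := 3 * α - 1 with hβ
  have hβ0 : 0 < β := by rw [hβ]; linarith
  set K : ℝ := (C : ℝ) * (4:ℝ) ^ α with hK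
  have hK0 : 0 ≤ K := by
    have : (0:ℝ) ≤ C := C.2
    positivity
  set t : ℝ := 1 / (8 * (K + 1)) with ht
  have ht0 : 0 < t := by positivity
  set h : ℝ := min (1 / 4) (t ^ (1 / β)) with hh
  have hh0 : 0 < h := lt_min (by norm_num) (Real.rpow_pos_of_pos ht0 _)
  refine ⟨h, hh0, min_le_left _ _, ?_⟩
  have h1 : h ^ β ≤ t := by
    calc h ^ β ≤ (t ^ (1 / β)) ^ β :=
          Real.rpow_le_rpow hh0.le (min_le_right _ _) hβ0.le
      _ = t := by
        rw [← Real.rpow_mul ht0.le]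
        have : 1 / β * β = 1 := by field_simp
        rw [this, Real.rpow_one]
  have h2 : (4 * h ^ 3) ^ α = (4:ℝ) ^ α * (h * h ^ β) := by
    rw [Real.mul_rpow (by norm_num) (by positivity)]
    congr 1
    rw [← Real.rpow_natCast, ← Real.rpow_mul hh0.le]
    have : ((3:ℕ):ℝ) * α = 1 + β := by rw [hβ]; push_cast; ring
    rw [this, Real.rpow_add hh0, Real.rpow_one]
  have h3 : (C : ℝ≥0∞) * (ENNReal.ofReal (4 * h ^ 3)) ^ α =
      ENNReal.ofReal ((C : ℝ) * (4 * h ^ 3) ^ α) := by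
    rw [ENNReal.ofReal_rpow_of_nonneg (by positivity) hα0.le,
      ENNReal.ofReal_mul (NNReal.coe_nonneg C), ENNReal.ofReal_coe_nnreal]
  rw [h3, ENNReal.ofReal_lt_ofReal_iff (by positivity), h2]
  have h4 : (C : ℝ) * ((4:ℝ) ^ α * (h * h ^ β)) = K * h * h ^ β := by rw [hK]; ring
  rw [h4]
  have h5 : K * h * h ^ β ≤ K * h * t := by
    gcongr
  have h6 : K * t < 1 / 8 := by
    rw [ht, mul_one_div, div_lt_div_iff₀ (by positivity) (by norm_num)]
    nlinarith
  have h7 : K * h * t = h * (K * t) := by ring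
  have h8 : h * (K * t) < h * (1 / 8) := by gcongr
  linarith

/-- Fix d ≥ 2 ... the statement -/
theorem result
    (d : ℕ) (hd : 2 ≤ d) (α : ℝ) (hα : 1 / 3 < α) (C : ℝ≥0) :
    ∃ μ ν : Measure (EuclideanSpace ℝ (Fin d)),
      IsProbabilityOn {x : EuclideanSpace ℝ (Fin d) | ∀ i, |x i| ≤ 1} μ ∧
      IsProbabilityOn {x : EuclideanSpace ℝ (Fin d) | ∀ i, |x i| ≤ 1} ν ∧
      IsThreeAtomic μ ∧ IsThreeAtomic ν ∧
      (∃ T, IsOptimalMap (uniformProbOn {x : EuclideanSpace ℝ (Fin d) | ∀ i, |x i| ≤ 1}) μ T) ∧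
      (∃ T, IsOptimalMap (uniformProbOn {x : EuclideanSpace ℝ (Fin d) | ∀ i, |x i| ≤ 1}) ν T) ∧
      ∀ Tμ Tν : EuclideanSpace ℝ (Fin d) → EuclideanSpace ℝ (Fin d),
        IsOptimalMap (uniformProbOn {x : EuclideanSpace ℝ (Fin d) | ∀ i, |x i| ≤ 1}) μ Tμ →
        IsOptimalMap (uniformProbOn {x : EuclideanSpace ℝ (Fin d) | ∀ i, |x i| ≤ 1}) ν Tν →
        ∃ π : Measure (EuclideanSpace ℝ (Fin d) × EuclideanSpace ℝ (Fin d)), IsPairCoupling μ ν π ∧
          (C : ℝ≥0∞) * quadCost π ^ α < ∫⁻ x, ‖Tμ x - Tν x‖ₑ ^ 2 ∂(uniformProbOn {x : EuclideanSpace ℝ (Fin d) | ∀ i, |x i| ≤ 1}) := by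
  classical
  let i0 : Fin d := ⟨0, by omega⟩
  let i1 : Fin d := ⟨1, by omega⟩
  have hne : i0 ≠ i1 := by simp [i0, i1, Fin.ext_iff]
  have hprob := rho_isProb hne
  obtain ⟨h, hh, hh', hb⟩ := exists_h α hα C
  have ha1 : |h| ≤ h := by rw [abs_of_pos hh]
  have ha2 : |(-h)| ≤ h := by rw [abs_neg, abs_of_pos hh]
  have c1 := cert hne hh hh' ha1
  have c2 := cert hne hh hh' ha2
  refine ⟨(rho d).map (TT i0 i1 h h), (rho d).map (TT i0 i1 (-h) h),
    isProbOn hne (by linarith), isProbOn hne (by linarith),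
    threeAtomic_TT hne (rho_idx_pos hne hh hh'), threeAtomic_TT hne ?_,
    ⟨_, isOptimal c1⟩, ⟨_, isOptimal c2⟩, ?_⟩
  · intro k
    rw [rho_idx_neg hne]
    exact rho_idx_pos hne hh hh' k
  · intro Tμ Tν hTμ hTν
    refine ⟨coup i0 i1 h, coup_isCoupling i0 i1 h, ?_⟩
    have h1 := tight_of_optimal c1 hTμ
    have h2 := tight_of_optimal c2 hTν
    have hlow : rho d (BB i0 i1 h) ≤ ∫⁻ x, ‖Tμ x - Tν x‖ₑ ^ 2 ∂(rho d) := by
      have hBm : MeasurableSet (BB i0 i1 h) :=
        (measurable_coord i0 measurableSet_Ioo).inter (measurable_coord i1 measurableSet_Ioo)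
      rw [← lintegral_indicator_one hBm]
      refine lintegral_mono_ae ?_
      filter_upwards [h1, h2] with x hx1 hx2
      by_cases hx : x ∈ BB i0 i1 h
      · rw [Set.indicator_of_mem hx]
        have e1 := tight_y1_of_BB hne hh hh' hx hx1.1 hx1.2
        have e2 := tight_zero_of_BB hne hh hh' hx hx2.1 hx2.2
        rw [e1, e2, sub_zero]
        have h3 := one_le_norm_y1 hne (a := h) (i0 := i0) (i1 := i1)
        have h4 : (1:ℝ≥0∞) ≤ ‖y1 i0 i1 h‖ₑ := by
          rw [← ofReal_norm]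
          rw [← ENNReal.ofReal_one]
          exact ENNReal.ofReal_le_ofReal h3
        simpa using one_le_pow₀ h4
      · rw [Set.indicator_of_notMem hx]
        exact zero_le
    have hcost := quadCost_coup hne hh hh'
    have hα0 : 0 ≤ α := by linarith
    calc (C : ℝ≥0∞) * quadCost (coup i0 i1 h) ^ α
        ≤ (C : ℝ≥0∞) * (ENNReal.ofReal (4 * h ^ 3)) ^ α := by
          gcongr
      _ < ENNReal.ofReal (h / 8) := hb
      _ = rho d (BB i0 i1 h) := (rho_BB hne hh hh').symm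
      _ ≤ _ := hlow

end Crest.Agent.S0110
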