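import Crest.Statements.S0166
import Crest.Agent.S0166Lib.Final

set_option autoImplicit false
open Crest Crest.AnalysisR
open Crest.Agent.S0166Lib Crest.Agent.AUCGame

namespace Crest.Agent.S0166

/-- There is a real Banach space (RealBanach record) that is separable, infinite-dimensional and reflexive, whose given norm has at every t > 0 averaged midpoint asymptotic modulus at least √(1 + t²/12) - 1 and at least (√(1 + t²/4) - 1)/2 and maximum-based midpoint modulus at least √(1 + t²/4) - 1, on which no equivalent norm is asymptotically uniformly convex, and in which for every k every map of the depth-k countably branching diamond graph of distortion at most D has 1 + k/4 ≤ D². -/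
theorem result :
    ∃ E : Crest.AnalysisR.RealBanach, E.IsSeparableInfiniteDim ∧ E.IsReflexive ∧
      (∀ t : ℝ, 0 < t → E.MidpointModulusGE E.norm t (Real.sqrt (1 + t ^ 2 / 12) - 1) ∧
        E.MidpointModulusGE E.norm t ((Real.sqrt (1 + t ^ 2 / 4) - 1) / 2) ∧
        E.MaxMidpointModulusGE E.norm t (Real.sqrt (1 + t ^ 2 / 4) - 1)) ∧
      (∀ N : E.X → ℝ, E.IsEquivNorm N → ¬ E.IsAUC N) ∧
      ∀ (k : ℕ) (f : Crest.AnalysisR.DiamondVertex k → E.X) (D : ℝ),
        E.HasDistortionLE k f D → 1 + (k : ℝ) / 4 ≤ D ^ 2 := by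
  have hw : ∀ t : ℝ, 1 ≤ Real.sqrt (1 + t ^ 2 / 4) := fun t =>
    Real.one_le_sqrt.2 (by nlinarith [sq_nonneg t])
  refine ⟨mkRB XX, ⟨xx_separable, xx_not_finiteDimensional⟩, xx_reflexive, ?_, ?_, ?_⟩
  · intro t ht
    refine ⟨?_, ?_, ?_⟩
    · intro x hx η hη
      obtain ⟨S, hcl, hfd, hS⟩ := xx_avg (x := x) hx hη
      refine ⟨(S : Set XX), ⟨S, rfl, hcl, hfd⟩, fun y hy hy1 => ?_⟩
      have h1 := hS y hy t ht hy1
      have h2 : Real.sqrt (1 + t ^ 2 / 12) ≤ Real.sqrt (1 + t ^ 2 / 4) :=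
        Real.sqrt_le_sqrt (by nlinarith [sq_nonneg t])
      show _ ≤ (‖x + t • y‖ + ‖x - t • y‖) / 2 - 1
      linarith
    · intro x hx η hη
      obtain ⟨S, hcl, hfd, hS⟩ := xx_avg (x := x) hx hη
      refine ⟨(S : Set XX), ⟨S, rfl, hcl, hfd⟩, fun y hy hy1 => ?_⟩
      have h1 := hS y hy t ht hy1
      have h2 := hw t
      show _ ≤ (‖x + t • y‖ + ‖x - t • y‖) / 2 - 1
      linarith
    · intro x hx η hη
      obtain ⟨S, hcl, hfd, hS⟩ := xx_avg (x := x) hx hη
      refine ⟨(S : Set XX), ⟨S, rfl, hcl, hfd⟩, fun y hy hy1 => ?_⟩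
      have h1 := hS y hy t ht hy1
      show _ ≤ max ‖x + t • y‖ ‖x - t • y‖ - 1
      have h3 : (‖x + t • y‖ + ‖x - t • y‖) / 2 ≤ max ‖x + t • y‖ ‖x - t • y‖ := by
        have a1 := le_max_left ‖x + t • y‖ ‖x - t • y‖
        have a2 := le_max_right ‖x + t • y‖ ‖x - t • y‖
        linarith
      linarith
  · intro N hN hauc
    obtain ⟨hsub, hhom, a, b, ha, hab⟩ := hN
    refine no_auc N hsub hhom ha hab fun t ht => ?_
    obtain ⟨c, hc, H⟩ := hauc t ht
    refine ⟨c, hc, fun x hx => ?_⟩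
    obtain ⟨F, ⟨S, rfl, hcl, hfd⟩, hy⟩ := H x hx
    exact ⟨S, hcl, hfd, hy⟩
  · intro k f D hf
    exact distortion_bound xx_rmsSq k f D hf

end Crest.Agent.S0166
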