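import Crest.Statements.S0167
import Crest.Agent.S0167Lib.Upper
import Crest.Agent.S0167Lib.Lower
import Crest.Agent.S0167Lib.Game

set_option autoImplicit false
open Crest Crest.AnalysisR

namespace Crest.Agent.S0167

/-- Let E be an infinite-dimensional closed subspace of the real L¹ of a probability space whose closed unit ball is totally bounded for convergence in measure and whose norm has the Daugavet property. Then at every unit x ∈ E and every t > 0 the averaged midpoint quantity sup_F inf_y ((‖x+ty‖+‖x-ty‖)/2 - 1) equals max(t/2, t-1) and the one-sided one sup_F inf_y (‖x+ty‖ - 1) equals max(0, t-2), as matching lower and upper bounds, and E admits no equivalent asymptotically uniformly convex norm. -/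
theorem result (Ω : Type) [MeasurableSpace Ω] (P : MeasureTheory.Measure Ω) [MeasureTheory.IsProbabilityMeasure P]
    (E : Submodule ℝ (MeasureTheory.Lp ℝ 1 P)) (hcl : IsClosed (E : Set (MeasureTheory.Lp ℝ 1 P)))
    (hinf : ¬ FiniteDimensional ℝ E)
    (htb : Crest.AnalysisR.L1Subspace.UnitBallTotallyBoundedInMeasure P E)
    (hD : Crest.AnalysisR.L1Subspace.HasDaugavetProperty E) :
    (∀ t : ℝ, 0 < t →
      (Crest.AnalysisR.L1Subspace.toRealBanach P E hcl).MidpointModulusGE
          (Crest.AnalysisR.L1Subspace.toRealBanach P E hcl).norm t (max (t / 2) (t - 1)) ∧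
        (Crest.AnalysisR.L1Subspace.toRealBanach P E hcl).MidpointModulusLE
          (Crest.AnalysisR.L1Subspace.toRealBanach P E hcl).norm t (max (t / 2) (t - 1)) ∧
        (Crest.AnalysisR.L1Subspace.toRealBanach P E hcl).OneSidedModulusGE
          (Crest.AnalysisR.L1Subspace.toRealBanach P E hcl).norm t (max 0 (t - 2)) ∧
        (Crest.AnalysisR.L1Subspace.toRealBanach P E hcl).OneSidedModulusLE
          (Crest.AnalysisR.L1Subspace.toRealBanach P E hcl).norm t (max 0 (t - 2))) ∧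
      ∀ N : E → ℝ, (Crest.AnalysisR.L1Subspace.toRealBanach P E hcl).IsEquivNorm N →
        ¬ (Crest.AnalysisR.L1Subspace.toRealBanach P E hcl).IsAUC N := by
  refine ⟨?_, ?_⟩
  · intro t ht
    refine ⟨?_, ?_, ?_, ?_⟩
    · -- MidpointModulusGE
      have key : ∀ x : E, ‖x‖ = 1 → ∀ η : ℝ, 0 < η → ∃ F : Set E,
          (∃ S : Submodule ℝ E, (S : Set E) = F ∧ IsClosed F ∧ FiniteDimensional ℝ (E ⧸ S)) ∧
          ∀ y ∈ F, ‖y‖ = 1 → max (t / 2) (t - 1) - η ≤ (‖x + t • y‖ + ‖x - t • y‖) / 2 - 1 := by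
        intro x hx η hη
        obtain ⟨S, hS, hfin, hS2⟩ := Crest.Agent.S0167Lib.midpoint_lower htb x hx ht hη
        refine ⟨(S : Set E), ⟨S, rfl, hS, hfin⟩, ?_⟩
        intro y hy hy1
        have h1 := hS2 y hy hy1
        have h2 := Crest.Agent.S0167Lib.midpoint_triangle x y hy1 ht
        apply sub_le_iff_le_add.mpr
        apply max_le <;> linarith
      exact key
    · -- MidpointModulusLE
      have key : ∀ x : E, ‖x‖ = 1 → ∀ F : Set E,
          (∃ S : Submodule ℝ E, (S : Set E) = F ∧ IsClosed F ∧ FiniteDimensional ℝ (E ⧸ S)) →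
          ∀ η : ℝ, 0 < η → ∃ y ∈ F, ‖y‖ = 1 ∧
            (‖x + t • y‖ + ‖x - t • y‖) / 2 - 1 ≤ max (t / 2) (t - 1) + η := by
        intro x hx F hF η hη
        obtain ⟨S, rfl, hS, hfin⟩ := hF
        exact Crest.Agent.S0167Lib.midpoint_upper htb hD hinf S hS hfin x hx ht hη
      exact key
    · -- OneSidedModulusGE
      have key : ∀ x : E, ‖x‖ = 1 → ∀ η : ℝ, 0 < η → ∃ F : Set E,
          (∃ S : Submodule ℝ E, (S : Set E) = F ∧ IsClosed F ∧ FiniteDimensional ℝ (E ⧸ S)) ∧
          ∀ y ∈ F, ‖y‖ = 1 → max 0 (t - 2) - η ≤ ‖x + t • y‖ - 1 := by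
        intro x hx η hη
        obtain ⟨S, hS, hfin, hS2⟩ := Crest.Agent.S0167Lib.oneSided_lower x hx ht
        refine ⟨(S : Set E), ⟨S, rfl, hS, hfin⟩, ?_⟩
        intro y hy hy1
        have h1 := hS2 y hy hy1
        linarith
      exact key
    · -- OneSidedModulusLE
      have key : ∀ x : E, ‖x‖ = 1 → ∀ F : Set E,
          (∃ S : Submodule ℝ E, (S : Set E) = F ∧ IsClosed F ∧ FiniteDimensional ℝ (E ⧸ S)) →
          ∀ η : ℝ, 0 < η → ∃ y ∈ F, ‖y‖ = 1 ∧ ‖x + t • y‖ - 1 ≤ max 0 (t - 2) + η := by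
        intro x hx F hF η hη
        obtain ⟨S, rfl, hS, hfin⟩ := hF
        exact Crest.Agent.S0167Lib.oneSided_upper htb hD hinf S hS hfin x hx ht hη
      exact key
  · intro N hN hAUC
    obtain ⟨hN1, hN2, a, b, ha, hN3⟩ := hN
    -- a unit vector
    obtain ⟨x₀, hx₀⟩ : ∃ x₀ : E, ‖x₀‖ = 1 := by
      have hnt : Nontrivial E := by
        by_contra hcon
        rw [not_nontrivial_iff_subsingleton] at hcon
        exact hinf inferInstance
      obtain ⟨u, hu⟩ := exists_ne (0 : E)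
      exact ⟨‖u‖⁻¹ • u, by rw [norm_smul, norm_inv, norm_norm, inv_mul_cancel₀ (norm_ne_zero_iff.mpr hu)]⟩
    refine Crest.Agent.S0167Lib.no_auc_core (X := E)
      (fun F : Set E => ∃ S : Submodule ℝ E, (S : Set E) = F ∧ IsClosed F ∧
        FiniteDimensional ℝ (E ⧸ S)) ?_ x₀ hx₀ ?_ N hN1 hN2 a b ha hN3 hAUC
    · rintro F ⟨S, rfl, -, -⟩
      exact ⟨S, rfl⟩
    · intro x hx F hF η hη
      obtain ⟨S, rfl, hS, hfin⟩ := hF
      obtain ⟨y, hyS, hy1, hy2⟩ := Crest.Agent.S0167Lib.oneSided_upper htb hD hinf S hS hfin x hx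
        (t := 2) (by norm_num) hη
      refine ⟨y, hyS, hy1, ?_⟩
      have h1 : max (0 : ℝ) (2 - 2) = 0 := by norm_num
      rw [h1] at hy2
      linarith

end Crest.Agent.S0167
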