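import Crest.Statements.S0168
import Crest.Agent.Lib.PotentialMain

set_option autoImplicit false
open Crest Crest.AnalysisR

namespace Crest.Agent.S0168Lib

open Crest.AnalysisR.TreePotential Crest.Agent.AUCGame Crest.Agent.PotLib

theorem sum_ite_sq_le_one {ι : Type} [DecidableEq ι] (A : Finset ι) (p : ι → Prop) [DecidablePred p]
    (hp : ∀ i j, p i → p j → i = j) : ∑ i ∈ A, (if p i then (1 : ℝ) else 0) ^ 2 ≤ 1 := by
  have e : ∀ i ∈ A, (if p i then (1 : ℝ) else 0) ^ 2 = if p i then 1 else 0 := by
    intro i _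
    split_ifs <;> norm_num
  rw [Finset.sum_congr rfl e, Finset.sum_boole]
  have : (A.filter p).card ≤ 1 := by
    rw [Finset.card_le_one]
    intro i hi j hj
    exact hp i j (Finset.mem_filter.mp hi).2 (Finset.mem_filter.mp hj).2
  exact_mod_cast this

theorem sum_sq_combine {ι : Type} (A : Finset ι) (f g h : ι → ℝ) (a b : ℝ)
    (hab : a ^ 2 + b ^ 2 ≤ 1) (hf : ∑ i ∈ A, f i ^ 2 ≤ 1) (hg : ∑ i ∈ A, g i ^ 2 ≤ 1)
    (hh : ∀ i ∈ A, h i ^ 2 ≤ a ^ 2 * f i ^ 2 + b ^ 2 * g i ^ 2) : ∑ i ∈ A, h i ^ 2 ≤ 1 := by
  calc ∑ i ∈ A, h i ^ 2 ≤ ∑ i ∈ A, (a ^ 2 * f i ^ 2 + b ^ 2 * g i ^ 2) := Finset.sum_le_sum hh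
    _ = a ^ 2 * ∑ i ∈ A, f i ^ 2 + b ^ 2 * ∑ i ∈ A, g i ^ 2 := by
      rw [Finset.sum_add_distrib, Finset.mul_sum, Finset.mul_sum]
    _ ≤ a ^ 2 * 1 + b ^ 2 * 1 := by gcongr
    _ ≤ 1 := by linarith

theorem sq_le_combine {f g h : List ℕ → ℝ} {G : Finset (List ℕ)} {a b : ℝ} (hb : 0 ≤ b)
    (h1 : ∀ s ∈ G, h s = a * f s) (h2 : ∀ s, s ∉ G → |h s| ≤ b * |g s|) (s : List ℕ) :
    h s ^ 2 ≤ a ^ 2 * f s ^ 2 + b ^ 2 * g s ^ 2 := by
  by_cases hs : s ∈ G
  · rw [h1 s hs]
    have : 0 ≤ b ^ 2 * g s ^ 2 := by positivity
    nlinarith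
  · have h3 := h2 s hs
    have h4 : h s ^ 2 ≤ (b * |g s|) ^ 2 := by
      rw [← sq_abs (h s)]
      exact pow_le_pow_left₀ (abs_nonneg _) h3 2
    rw [mul_pow, sq_abs] at h4
    have : 0 ≤ a ^ 2 * f s ^ 2 := by positivity
    linarith

/-- Active coordinates. -/
def actOf : PotentialModel → List ℕ → Prop
  | .rootlessSibling, s => s ≠ []
  | .rootedSibling, _ => True
  | .antichain, _ => True
  | .global, _ => True

theorem sibling_antichain (r : List ℕ) (A : Finset ℕ) :
    IsTreeAntichain (A.image fun n => n :: r) := by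
  intro u hu v hv huv hsuf
  obtain ⟨n, -, rfl⟩ := Finset.mem_image.mp hu
  obtain ⟨m, -, rfl⟩ := Finset.mem_image.mp hv
  have := hsuf.eq_of_length (by simp)
  exact huv this

theorem sum_image_cons (r : List ℕ) (A : Finset ℕ) (f : List ℕ → ℝ) :
    ∑ u ∈ A.image (fun n => n :: r), f u ^ 2 = ∑ n ∈ A, f (n :: r) ^ 2 := by
  rw [Finset.sum_image]
  intro a _ b _ hab
  simpa using hab

theorem adm (m : PotentialModel) : Adm (ExtraCondition m) (actOf m) := by
  cases m with
  | rootlessSibling =>
    refine ⟨?_, ?_, ?_, ?_, ?_, ?_⟩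
    · exact ⟨rfl, fun r A => by simp⟩
    · rintro f ⟨h0, h1⟩
      refine ⟨by simp [h0], fun r A => ?_⟩
      simpa using h1 r A
    · intro s hs
      refine ⟨?_, fun r A => ?_⟩
      · have : ([] : List ℕ) ≠ s := fun h => hs h.symm
        simp [this]
      · refine sum_ite_sq_le_one A (fun n => n :: r = s) ?_
        rintro i j rfl h
        simpa using h.symm
    · intro f s hf hs
      have : s = [] := by
        by_contra h
        exact hs h
      subst this
      exact hf.1
    · rintro f g h G a b ⟨hf0, hf1⟩ ⟨-, hg1⟩ hroot ha hb hab h1 h2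
      refine ⟨by rw [h1 _ hroot, hf0, mul_zero], fun r A => ?_⟩
      exact sum_sq_combine A _ _ _ a b hab (hf1 r A) (hg1 r A)
        (fun n _ => sq_le_combine hb h1 h2 _)
    · intro f r A hf
      exact hf.2 r A
  | rootedSibling =>
    refine ⟨?_, ?_, ?_, ?_, ?_, ?_⟩
    · exact fun r A => by simp
    · rintro f h1 r A
      simpa using h1 r A
    · intro s _ r A
      refine sum_ite_sq_le_one A (fun n => n :: r = s) ?_
      rintro i j rfl h
      simpa using h.symm
    · intro f s _ hs
      exact absurd trivial hs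
    · rintro f g h G a b hf1 hg1 hroot ha hb hab h1 h2 r A
      exact sum_sq_combine A _ _ _ a b hab (hf1 r A) (hg1 r A)
        (fun n _ => sq_le_combine hb h1 h2 _)
    · intro f r A hf
      exact hf r A
  | antichain =>
    refine ⟨?_, ?_, ?_, ?_, ?_, ?_⟩
    · exact ⟨by simp, fun A _ => by simp⟩
    · rintro f ⟨h0, h1⟩
      refine ⟨by simpa [Function.support] using h0, fun A hA => ?_⟩
      simpa using h1 A hA
    · intro s _
      refine ⟨?_, fun A _ => ?_⟩
      · refine (Set.finite_singleton s).subset ?_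
        intro u hu
        simp only [Function.mem_support, ne_eq, ite_eq_right_iff, one_ne_zero, imp_false,
          not_not] at hu
        simpa using hu
      · refine sum_ite_sq_le_one A (fun u => u = s) ?_
        rintro i j rfl h
        exact h.symm
    · intro f s _ hs
      exact absurd trivial hs
    · rintro f g h G a b ⟨hf0, hf1⟩ ⟨hg0, hg1⟩ hroot ha hb hab h1 h2
      refine ⟨(hf0.union hg0).subset ?_, fun A hA => ?_⟩
      · intro s hs
        by_cases hsG : s ∈ G
        · left
          simp only [Function.mem_support] at hs ⊢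
          rw [h1 s hsG] at hs
          exact right_ne_zero_of_mul hs
        · right
          simp only [Function.mem_support] at hs ⊢
          intro hg
          have := h2 s hsG
          rw [hg, abs_zero, mul_zero] at this
          exact hs (abs_nonpos_iff.mp this)
      · exact sum_sq_combine A _ _ _ a b hab (hf1 A hA) (hg1 A hA)
          (fun n _ => sq_le_combine hb h1 h2 _)
    · rintro f r A ⟨-, hf⟩
      have := hf _ (sibling_antichain r A)
      rwa [sum_image_cons] at this
  | global =>
    refine ⟨?_, ?_, ?_, ?_, ?_, ?_⟩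
    · exact fun A => by simp
    · rintro f h1 A
      simpa using h1 A
    · intro s _ A
      refine sum_ite_sq_le_one A (fun u => u = s) ?_
      rintro i j rfl h
      exact h.symm
    · intro f s _ hs
      exact absurd trivial hs
    · rintro f g h G a b hf1 hg1 hroot ha hb hab h1 h2 A
      exact sum_sq_combine A _ _ _ a b hab (hf1 A) (hg1 A)
        (fun n _ => sq_le_combine hb h1 h2 _)
    · intro f r A hf
      have := hf (A.image fun n => n :: r)
      rwa [sum_image_cons] at this

theorem act_of_ne (m : PotentialModel) (s : List ℕ) (hs : s ≠ []) : actOf m s := by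
  cases m with
  | rootlessSibling => exact hs
  | rootedSibling => trivial
  | antichain => trivial
  | global => trivial

end Crest.Agent.S0168Lib

namespace Crest.Agent.S0168

open Crest.Agent.AUCGame Crest.Agent.PotLib Crest.Agent.S0168Lib

/-- For each of the four bounded-potential coordinate models on the countably branching tree (rootless sibling, rooted sibling, antichain, global), the generated space, namely the closure of the span of the coordinate vectors in the supremum norm over the model's tests, is separable and infinite-dimensional, its norm has at every unit centre and every 0 < t < 1 averaged midpoint asymptotic quantity at least √(1 + t²/4) - 1, and no equivalent norm on it is asymptotically uniformly convex. -/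
theorem result
    (m : Crest.AnalysisR.TreePotential.PotentialModel) :
    (Crest.AnalysisR.TreePotential.modelBanach m).IsSeparableInfiniteDim ∧
      (∀ t : ℝ, 0 < t → t < 1 →
        (Crest.AnalysisR.TreePotential.modelBanach m).MidpointModulusGE
          (Crest.AnalysisR.TreePotential.modelBanach m).norm t (Real.sqrt (1 + t ^ 2 / 4) - 1)) ∧
      ∀ N : (Crest.AnalysisR.TreePotential.modelBanach m).X → ℝ,
        (Crest.AnalysisR.TreePotential.modelBanach m).IsEquivNorm N →
          ¬ (Crest.AnalysisR.TreePotential.modelBanach m).IsAUC N := by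
  refine ⟨⟨separable_gSpace _, not_finiteDimensional_gSpace (adm m) (act_of_ne m)⟩, ?_, ?_⟩
  · intro t ht0 ht1 x hx η hη
    obtain ⟨F, hF, hFy⟩ := midpoint_gSpace (Ex := Crest.AnalysisR.TreePotential.ExtraCondition m)
      (adm m) ht0 (by nlinarith : t ^ 2 ≤ 4 / 3) x hx hη
    exact ⟨F, hF, fun y hy hyn => hFy y hy hyn⟩
  · intro N hN
    exact not_auc_gSpace (adm m) (act_of_ne m) N hN

end Crest.Agent.S0168
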