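import Crest.Statements.S0169
import Crest.Agent.Lib.AUCGame

set_option autoImplicit false
set_option linter.unusedSectionVars false
set_option linter.unusedVariables false
open MeasureTheory ProbabilityTheory
open Crest Crest.AnalysisR

namespace Crest.Agent.S0169

open Crest.AnalysisR.TreeProduct

/-- The non-root vertices on the root path of a vertex. -/
def anc : List ℕ → Finset (List ℕ)
  | [] => ∅
  | a :: v => insert (a :: v) (anc v)

lemma mem_anc_length {v u : List ℕ} (h : u ∈ anc v) : u.length ≤ v.length := by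
  induction v with
  | nil => simp [anc] at h
  | cons a v ih =>
    simp only [anc, Finset.mem_insert] at h
    rcases h with rfl | h
    · exact le_rfl
    · have := ih h
      simp only [List.length_cons]
      omega

lemma mem_anc_ne_nil {v u : List ℕ} (h : u ∈ anc v) : u ≠ [] := by
  induction v with
  | nil => simp [anc] at h
  | cons a v ih =>
    simp only [anc, Finset.mem_insert] at h
    rcases h with rfl | h
    · simp
    · exact ih h

lemma pathProduct_eq_prod {Ω : Type} (W : List ℕ → Ω → ℝ) (v : List ℕ) (ω : Ω) :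
    pathProduct W v ω = ∏ u ∈ anc v, W u ω := by
  induction v with
  | nil => simp [pathProduct, anc]
  | cons a v ih =>
    have hn : (a :: v) ∉ anc v := fun h => by
      have := mem_anc_length h
      simp at this
    simp only [pathProduct, anc, Finset.prod_insert hn, ih]
    ring

section Main

variable {Ω : Type} [MeasurableSpace Ω] {μ : Measure Ω} [IsProbabilityMeasure μ]
  {W : List ℕ → Ω → ℝ}

lemma measurable_path (hm : ∀ v, Measurable (W v)) (v : List ℕ) :
    Measurable (pathProduct W v) := by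
  induction v with
  | nil => exact measurable_const
  | cons a v ih => exact ih.mul (hm _)

/-- A path product is independent of any function of the multipliers further from the root. -/
lemma indep_path (hm : ∀ v, Measurable (W v)) (hi : iIndepFun W μ) (v : List ℕ)
    (T : Finset (List ℕ)) (hT : ∀ u ∈ T, v.length < u.length) {φ : (T → ℝ) → ℝ}
    (hφ : Measurable φ) :
    IndepFun (pathProduct W v) (fun ω => φ (fun i : T => W i ω)) μ := by
  have hd : Disjoint (anc v) T := by
    rw [Finset.disjoint_left]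
    intro u hu hu'
    have h1 := mem_anc_length hu
    have h2 := hT u hu'
    omega
  have h := hi.indepFun_finset (anc v) T hd hm
  have hφ1 : Measurable (fun y : (anc v) → ℝ => ∏ i : anc v, y i) :=
    Finset.measurable_prod _ (fun i _ => measurable_pi_apply i)
  have h' := h.comp hφ1 hφ
  have e : pathProduct W v = (fun y : (anc v) → ℝ => ∏ i : anc v, y i) ∘
      (fun a (i : anc v) => W i a) := by
    funext ω
    simp only [Function.comp, pathProduct_eq_prod]
    exact (Finset.prod_coe_sort (anc v) (fun u => W u ω)).symm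
  rw [e]
  exact h'

/-- Expectation of a function of an independent far-away tuple against the path product. -/
lemma integral_abs_mul (hm : ∀ v, Measurable (W v)) (hi : iIndepFun W μ) (r : List ℕ)
    (hpath : Integrable (pathProduct W r) μ) (h1 : ∫ ω, pathProduct W r ω ∂μ = 1)
    (h0 : ∀ᵐ ω ∂μ, 0 ≤ pathProduct W r ω)
    (T : Finset (List ℕ)) (hT : ∀ u ∈ T, r.length < u.length) {φ : (T → ℝ) → ℝ}
    (hφ : Measurable φ) :
    ∫ ω, |pathProduct W r ω * φ (fun i : T => W i ω)| ∂μ = ∫ ω, |φ (fun i : T => W i ω)| ∂μ := by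
  have hind := indep_path (μ := μ) hm hi r T hT (φ := fun y => |φ y|) (hφ.abs)
  have e1 : ∫ ω, |pathProduct W r ω * φ (fun i : T => W i ω)| ∂μ =
      ∫ ω, pathProduct W r ω * |φ (fun i : T => W i ω)| ∂μ := by
    refine integral_congr_ae ?_
    filter_upwards [h0] with ω hω
    rw [abs_mul, abs_of_nonneg hω]
  rw [e1, hind.integral_fun_mul_eq_mul_integral (measurable_path hm r).aestronglyMeasurable
    ((hφ.abs).comp (measurable_pi_lambda _ fun i => hm i)).aestronglyMeasurable]
  change (∫ ω, pathProduct W r ω ∂μ) * (∫ ω, |φ (fun i : T => W i ω)| ∂μ) = _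
  rw [h1, one_mul]

end Main

section Realization

variable {ν : Measure ℝ} [IsProbabilityMeasure ν]
  {Ω : Type} [MeasurableSpace Ω] {μ : Measure Ω} [IsProbabilityMeasure μ]
  {W : List ℕ → Ω → ℝ}

lemma memLp_W (hm2 : Integrable (fun x : ℝ => x ^ 2) ν) (hW : IsRealization ν μ W)
    {u : List ℕ} (hu : u ≠ []) : MemLp (W u) 2 μ := by
  have h1 : MemLp id 2 ν :=
    (memLp_two_iff_integrable_sq measurable_id.aestronglyMeasurable).2 hm2
  have h2 : MemLp id 2 (Measure.map (W u) μ) := by rwa [hW.2.2 u hu]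
  exact (memLp_map_measure_iff aestronglyMeasurable_id (hW.1 u).aemeasurable).1 h2

lemma integrable_W (hm2 : Integrable (fun x : ℝ => x ^ 2) ν) (hW : IsRealization ν μ W)
    {u : List ℕ} (hu : u ≠ []) : Integrable (W u) μ :=
  (memLp_W hm2 hW hu).integrable (by norm_num)

lemma integral_comp_W (hW : IsRealization ν μ W) {u : List ℕ} (hu : u ≠ []) {f : ℝ → ℝ}
    (hf : Measurable f) : ∫ ω, f (W u ω) ∂μ = ∫ x, f x ∂ν := by
  rw [← hW.2.2 u hu, integral_map (hW.1 u).aemeasurable hf.aestronglyMeasurable]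

lemma pos_W (hpos : ν (Set.Ioi 0) = 1) (hW : IsRealization ν μ W) {u : List ℕ} (hu : u ≠ []) :
    ∀ᵐ ω ∂μ, 0 < W u ω := by
  have h1 : ∀ᵐ x ∂ν, x ∈ Set.Ioi (0 : ℝ) :=
    (prob_compl_eq_zero_iff measurableSet_Ioi).2 hpos
  rw [← hW.2.2 u hu] at h1
  exact ae_of_ae_map (hW.1 u).aemeasurable h1

/-- Path products are integrable, non-negative, of mean one. -/
lemma path_facts (hpos : ν (Set.Ioi 0) = 1) (hmean : ∫ x, x ∂ν = 1)
    (hm2 : Integrable (fun x : ℝ => x ^ 2) ν) (hW : IsRealization ν μ W) (v : List ℕ) :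
    Integrable (pathProduct W v) μ ∧ (∫ ω, pathProduct W v ω ∂μ) = 1 ∧
      ∀ᵐ ω ∂μ, 0 ≤ pathProduct W v ω := by
  induction v with
  | nil =>
    refine ⟨integrable_const _, ?_, ae_of_all _ fun _ => ?_⟩
    · simp [pathProduct]
    · simp [pathProduct]
  | cons a v ih =>
    obtain ⟨h1, h2, h3⟩ := ih
    have hne : (a :: v) ≠ [] := by simp
    have hT : ∀ u ∈ ({a :: v} : Finset (List ℕ)), v.length < u.length := by
      intro u hu
      rw [Finset.mem_singleton.1 hu]
      simp
    have hind := indep_path (μ := μ) hW.1 hW.2.1 v {a :: v} hT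
      (φ := fun y => y ⟨a :: v, Finset.mem_singleton_self _⟩) (measurable_pi_apply _)
    have e : pathProduct W (a :: v) = pathProduct W v * W (a :: v) := rfl
    refine ⟨?_, ?_, ?_⟩
    · rw [e]
      exact IndepFun.integrable_mul hind h1 (integrable_W hm2 hW hne)
    · have h4 := hind.integral_fun_mul_eq_mul_integral (measurable_path hW.1 v).aestronglyMeasurable
        (hW.1 _).aestronglyMeasurable
      have h5 : ∫ ω, W (a :: v) ω ∂μ = 1 :=
        (integral_comp_W (f := id) hW hne measurable_id).trans hmean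
      calc ∫ ω, pathProduct W (a :: v) ω ∂μ = _ := h4
        _ = 1 := by
          change (∫ ω, pathProduct W v ω ∂μ) * (∫ ω, W (a :: v) ω ∂μ) = 1
          rw [h2, h5, one_mul]
    · filter_upwards [h3, pos_W hpos hW hne] with ω h6 h7
      exact mul_nonneg h6 h7.le

/-- The `L¹` second-moment estimate for a sum of independent centred multipliers. -/
lemma abs_sum_le (hmean : ∫ x, x ∂ν = 1) (hm2 : Integrable (fun x : ℝ => x ^ 2) ν)
    (hW : IsRealization ν μ W) (T : Finset (List ℕ)) (hT : ∀ u ∈ T, u ≠ []) :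
    ∫ ω, |∑ u ∈ T, (W u ω - 1)| ∂μ ≤
      Real.sqrt (∫ x, (x - 1) ^ 2 ∂ν) * Real.sqrt T.card := by
  set s : ℝ := ∫ x, (x - 1) ^ 2 ∂ν with hs
  have hZm : ∀ u ∈ T, MemLp (fun ω => W u ω - 1) 2 μ := fun u hu =>
    (memLp_W hm2 hW (hT u hu)).sub (memLp_const 1)
  have hZ0 : ∀ u ∈ T, ∫ ω, (W u ω - 1) ∂μ = 0 := by
    intro u hu
    rw [integral_sub (integrable_W hm2 hW (hT u hu)) (integrable_const 1)]
    have := (integral_comp_W (f := id) hW (hT u hu) measurable_id).trans hmean
    simp only [id] at this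
    rw [this]
    simp
  have hZv : ∀ u ∈ T, variance (fun ω => W u ω - 1) μ = s := by
    intro u hu
    rw [variance_eq_sub (hZm u hu), hZ0 u hu]
    have := integral_comp_W (f := fun x => (x - 1) ^ 2) hW (hT u hu)
      ((measurable_id.sub measurable_const).pow_const 2)
    simp only [Pi.pow_apply]
    rw [this]
    simp [hs]
  have hpair : Set.Pairwise (T : Set (List ℕ))
      fun i j => (fun ω => W i ω - 1) ⟂ᵢ[μ] (fun ω => W j ω - 1) := by
    intro i _ j _ hij
    exact (hW.2.1.indepFun hij).comp (φ := fun x => x - 1) (ψ := fun x => x - 1)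
      (measurable_id.sub measurable_const) (measurable_id.sub measurable_const)
  have hvar := IndepFun.variance_sum (μ := μ) (X := fun u ω => W u ω - 1) hZm hpair
  rw [Finset.sum_congr rfl hZv, Finset.sum_const, nsmul_eq_mul] at hvar
  set Y : Ω → ℝ := ∑ u ∈ T, fun ω => W u ω - 1 with hY
  have hYfun : ∀ ω, Y ω = ∑ u ∈ T, (W u ω - 1) := by
    intro ω
    simp [hY, Finset.sum_apply]
  have hYm : MemLp Y 2 μ := memLp_finsetSum' T hZm
  have hY0 : ∫ ω, Y ω ∂μ = 0 := by
    simp only [hYfun]
    rw [integral_finsetSum T (fun u hu => (hZm u hu).integrable (by norm_num))]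
    exact Finset.sum_eq_zero hZ0
  have hY2 : ∫ ω, Y ω ^ 2 ∂μ = T.card * s := by
    have := variance_eq_sub hYm
    rw [hvar] at this
    rw [this]
    simp only [Pi.pow_apply]
    rw [hY0]
    ring
  have hAm : MemLp (fun ω => |Y ω|) 2 μ := hYm.abs
  have hvar2 := variance_nonneg (fun ω => |Y ω|) μ
  rw [variance_eq_sub hAm] at hvar2
  have hA2 : ∫ ω, ((fun ω => |Y ω|) ^ 2) ω ∂μ = ∫ ω, Y ω ^ 2 ∂μ := by
    refine integral_congr_ae (ae_of_all _ fun ω => ?_)
    simp
  rw [show (μ[(fun ω => |Y ω|) ^ 2]) = ∫ ω, Y ω ^ 2 ∂μ from hA2, hY2] at hvar2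
  have hle : (∫ ω, |Y ω| ∂μ) ^ 2 ≤ T.card * s := by linarith
  have hnn : 0 ≤ ∫ ω, |Y ω| ∂μ := integral_nonneg fun _ => abs_nonneg _
  have hs0 : 0 ≤ s := integral_nonneg fun _ => sq_nonneg _
  have hgoal : ∫ ω, |Y ω| ∂μ ≤ Real.sqrt s * Real.sqrt T.card := by
    rw [← Real.sqrt_mul hs0, mul_comm s]
    exact Real.le_sqrt_of_sq_le hle
  simpa only [hYfun] using hgoal

lemma kappa_pos (hnc : ∀ c : ℝ, ν ≠ Measure.dirac c)
    (hint : Integrable (fun x : ℝ => x) ν) : 0 < ∫ x, |x - 1| ∂ν := by
  have hi : Integrable (fun x : ℝ => |x - 1|) ν := (hint.sub (integrable_const 1)).abs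
  have hnn : 0 ≤ᵐ[ν] (fun x : ℝ => |x - 1|) := ae_of_all _ fun _ => abs_nonneg _
  refine lt_of_le_of_ne (integral_nonneg fun _ => abs_nonneg _) fun h0 => ?_
  have hz := (integral_eq_zero_iff_of_nonneg_ae hnn hi).1 h0.symm
  have hone : ∀ᵐ x ∂ν, x = 1 := by
    filter_upwards [hz] with x hx
    have : |x - 1| = 0 := hx
    linarith [abs_eq_zero.1 this]
  refine hnc 1 ?_
  ext t ht
  rw [Measure.dirac_apply' _ ht]
  by_cases h1 : (1 : ℝ) ∈ t
  · rw [Set.indicator_of_mem h1]
    have hae : ∀ᵐ x ∂ν, x ∈ t := by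
      filter_upwards [hone] with x hx
      rwa [hx]
    have : ν t = ν Set.univ := by
      refine measure_congr ?_
      filter_upwards [hae] with x hx
      exact propext ⟨fun _ => trivial, fun _ => hx⟩
    rw [this, measure_univ]
    rfl
  · rw [Set.indicator_of_notMem h1]
    have hae : ∀ᵐ x ∂ν, x ∉ t := by
      filter_upwards [hone] with x hx
      rwa [hx]
    exact (measure_eq_zero_iff_ae_notMem).2 hae

end Realization

section Elements

variable {Ω : Type} [MeasurableSpace Ω] {μ : Measure Ω} [IsProbabilityMeasure μ]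
  {W : List ℕ → Ω → ℝ}

/-- The path product at `v`, as an element of the product span. -/
noncomputable def elem (h : ∀ v, Integrable (pathProduct W v) μ) (v : List ℕ) :
    productSpan μ W :=
  ⟨(h v).toL1 _, Submodule.le_topologicalClosure _
    (Submodule.subset_span ⟨v, Integrable.coeFn_toL1 (h v)⟩)⟩

lemma coe_elem (h : ∀ v, Integrable (pathProduct W v) μ) (v : List ℕ) :
    ((elem h v : Lp ℝ 1 μ) : Ω → ℝ) =ᵐ[μ] pathProduct W v :=
  Integrable.coeFn_toL1 (h v)

/-- The increments along the tree. -/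
noncomputable def incr (h : ∀ v, Integrable (pathProduct W v) μ) : List ℕ → productSpan μ W
  | [] => 0
  | n :: r => elem h (n :: r) - elem h r

lemma branch_incr (h : ∀ v, Integrable (pathProduct W v) μ) (s : List ℕ) :
    Crest.Agent.AUCGame.branch (incr h) s = elem h s - elem h [] := by
  induction s with
  | nil => simp [Crest.Agent.AUCGame.branch]
  | cons a v ih =>
    simp only [Crest.Agent.AUCGame.branch, incr, ih]
    abel

lemma norm_elem (h : ∀ v, Integrable (pathProduct W v) μ)
    (h1 : ∀ v, ∫ ω, pathProduct W v ω ∂μ = 1) (h0 : ∀ v, ∀ᵐ ω ∂μ, 0 ≤ pathProduct W v ω)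
    (v : List ℕ) : ‖elem h v‖ = 1 := by
  rw [Submodule.coe_norm, L1.norm_eq_integral_norm, ← h1 v]
  refine integral_congr_ae ?_
  filter_upwards [coe_elem h v, h0 v] with ω h2 h3
  rw [h2, Real.norm_eq_abs, abs_of_nonneg h3]

/-- The sum of sibling increments is almost everywhere the expected product. -/
lemma coe_sum_incr (h : ∀ v, Integrable (pathProduct W v) μ) (r : List ℕ) (A : Finset ℕ) :
    (((∑ n ∈ A, incr h (n :: r) : productSpan μ W) : Lp ℝ 1 μ) : Ω → ℝ) =ᵐ[μ]
      fun ω => pathProduct W r ω * ∑ n ∈ A, (W (n :: r) ω - 1) := by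
  classical
  induction A using Finset.induction_on with
  | empty =>
    simp only [Finset.sum_empty, mul_zero]
    exact Lp.coeFn_zero _ _ _
  | insert a A ha ih =>
    rw [Finset.sum_insert ha]
    have e : ((incr h (a :: r) + ∑ n ∈ A, incr h (n :: r) : productSpan μ W) : Lp ℝ 1 μ) =
        ((elem h (a :: r) : Lp ℝ 1 μ) - (elem h r : Lp ℝ 1 μ)) +
          ((∑ n ∈ A, incr h (n :: r) : productSpan μ W) : Lp ℝ 1 μ) := rfl
    rw [e]
    filter_upwards [Lp.coeFn_add ((elem h (a :: r) : Lp ℝ 1 μ) - (elem h r : Lp ℝ 1 μ))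
      ((∑ n ∈ A, incr h (n :: r) : productSpan μ W) : Lp ℝ 1 μ),
      Lp.coeFn_sub (elem h (a :: r) : Lp ℝ 1 μ) (elem h r : Lp ℝ 1 μ), ih,
      coe_elem h (a :: r), coe_elem h r] with ω h1 h2 h3 h4 h5
    rw [h1, Pi.add_apply, h2, Pi.sub_apply, h3, h4, h5, Finset.sum_insert ha]
    simp only [pathProduct]
    ring

lemma norm_sum_incr (hm : ∀ v, Measurable (W v)) (hi : iIndepFun W μ)
    (h : ∀ v, Integrable (pathProduct W v) μ)
    (h1 : ∀ v, ∫ ω, pathProduct W v ω ∂μ = 1) (h0 : ∀ v, ∀ᵐ ω ∂μ, 0 ≤ pathProduct W v ω)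
    (r : List ℕ) (A : Finset ℕ) :
    ‖∑ n ∈ A, incr h (n :: r)‖ = ∫ ω, |∑ u ∈ A.image (fun n => n :: r), (W u ω - 1)| ∂μ := by
  classical
  set T : Finset (List ℕ) := A.image (fun n => n :: r) with hTdef
  have hinj : Set.InjOn (fun n : ℕ => n :: r) (A : Set ℕ) := by
    intro a _ b _ hab
    simpa using hab
  have hsum : ∀ ω, ∑ u ∈ T, (W u ω - 1) = ∑ n ∈ A, (W (n :: r) ω - 1) := fun ω =>
    Finset.sum_image hinj
  have hT : ∀ u ∈ T, r.length < u.length := by
    intro u hu
    obtain ⟨n, -, rfl⟩ := Finset.mem_image.1 hu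
    simp
  have hφ : Measurable (fun y : T → ℝ => ∑ i : T, (y i - 1)) :=
    Finset.measurable_sum _ fun i _ => (measurable_pi_apply i).sub measurable_const
  have hkey := integral_abs_mul (μ := μ) hm hi r (h r) (h1 r) (h0 r) T hT hφ
  have hcs : ∀ ω, ∑ i : T, (W i ω - 1) = ∑ u ∈ T, (W u ω - 1) := fun ω =>
    Finset.sum_coe_sort T (fun u => W u ω - 1)
  simp only [hcs] at hkey
  rw [Submodule.coe_norm, L1.norm_eq_integral_norm, ← hkey]
  refine integral_congr_ae ?_
  filter_upwards [coe_sum_incr h r A] with ω h2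
  rw [h2, Real.norm_eq_abs, hsum]

end Elements

/-- Let ν be a Borel probability law on ℝ carried by (0,∞), not a point mass, with mean 1 and finite second moment, and W an independent family of real random variables on a probability space indexed by the vertices of the countably branching tree (finite lists of naturals; root [], parent of a :: v is v), each non-root one with law ν. Then the closed linear span in L¹ of the path products ∏_{root ≺ u ≼ v} W_u is infinite-dimensional and has no equivalent asymptotically uniformly convex norm. -/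
theorem result (ν : Measure ℝ) [IsProbabilityMeasure ν] (hpos : ν (Set.Ioi 0) = 1)
    (hnc : ∀ c : ℝ, ν ≠ Measure.dirac c) (hmean : ∫ x, x ∂ν = 1)
    (hm2 : Integrable (fun x : ℝ => x ^ 2) ν)
    (Ω : Type) [MeasurableSpace Ω] (μ : Measure Ω) [IsProbabilityMeasure μ]
    (W : List ℕ → Ω → ℝ) (hW : Crest.AnalysisR.TreeProduct.IsRealization ν μ W) :
    ¬ FiniteDimensional ℝ (Crest.AnalysisR.TreeProduct.productSpan μ W) ∧
      ∀ N : (Crest.AnalysisR.TreeProduct.spanBanach μ W).X → ℝ,
        (Crest.AnalysisR.TreeProduct.spanBanach μ W).IsEquivNorm N →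
          ¬ (Crest.AnalysisR.TreeProduct.spanBanach μ W).IsAUC N := by
  classical
  have hfacts := fun v => path_facts (μ := μ) hpos hmean hm2 hW v
  have h : ∀ v, Integrable (pathProduct W v) μ := fun v => (hfacts v).1
  have h1 : ∀ v, ∫ ω, pathProduct W v ω ∂μ = 1 := fun v => (hfacts v).2.1
  have h0 : ∀ v, ∀ᵐ ω ∂μ, 0 ≤ pathProduct W v ω := fun v => (hfacts v).2.2
  have hint : Integrable (fun x : ℝ => x) ν :=
    ((memLp_two_iff_integrable_sq measurable_id.aestronglyMeasurable).2 hm2).integrable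
      (by norm_num)
  set κ : ℝ := ∫ x, |x - 1| ∂ν with hκdef
  have hκ : 0 < κ := kappa_pos hnc hint
  set C : ℝ := Real.sqrt (∫ x, (x - 1) ^ 2 ∂ν) with hC
  have hlow : ∀ (n : ℕ) (r : List ℕ), κ ≤ ‖incr h (n :: r)‖ := by
    intro n r
    have h2 := norm_sum_incr (μ := μ) hW.1 hW.2.1 h h1 h0 r {n}
    simp only [Finset.sum_singleton, Finset.image_singleton] at h2
    rw [h2]
    have h3 := integral_comp_W (f := fun x => |x - 1|) hW (u := n :: r) (by simp)
      ((measurable_id.sub measurable_const).abs)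
    exact h3.symm.le
  have hup : ∀ (r : List ℕ) (A : Finset ℕ),
      ‖∑ n ∈ A, incr h (n :: r)‖ ≤ C * Real.sqrt A.card := by
    intro r A
    rw [norm_sum_incr (μ := μ) hW.1 hW.2.1 h h1 h0 r A]
    have hT : ∀ u ∈ A.image (fun n => n :: r), u ≠ [] := by
      intro u hu
      obtain ⟨n, -, rfl⟩ := Finset.mem_image.1 hu
      simp
    have h2 := abs_sum_le (μ := μ) hmean hm2 hW (A.image (fun n => n :: r)) hT
    rw [Finset.card_image_of_injective _ (fun a b hab => by simpa using hab)] at h2
    exact h2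
  haveI hcomplete : CompleteSpace (productSpan μ W) :=
    (Submodule.isClosed_topologicalClosure _).completeSpace_coe
  refine ⟨?_, ?_⟩
  · exact Crest.Agent.AUCGame.not_finiteDimensional_of_sqrt_bound (fun n => incr h [n]) C κ hκ
      (fun n => hlow n []) (fun A => hup [] A)
  · intro N hN
    refine Crest.Agent.AUCGame.not_auc_of_tree (X := productSpan μ W) 2 κ C hκ
      (fun k => ⟨incr h, ?_, ?_, ?_⟩) N hN
    · intro s hs _
      cases s with
      | nil => exact absurd rfl hs
      | cons n r => exact hlow n r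
    · intro s _
      rw [branch_incr]
      refine (norm_sub_le _ _).trans ?_
      rw [norm_elem h h1 h0, norm_elem h h1 h0]
      norm_num
    · intro r _ A
      exact hup r A

end Crest.Agent.S0169
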