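-- Statement S0222: the Thorp shuffle mixes in `1600 log₂ n` steps.
import Crest.Statements.S0222
import Crest.Agent.S0222Lib.FRAssemble
import Crest.Agent.S0222Lib.FRPotWire
import Crest.Agent.S0222Lib.FRPotBoxRun
import Crest.Agent.S0222Lib.FRPotFacts
import Crest.Agent.S0222Lib.JCovIdx
import Crest.Agent.S0222Lib.JCovLeaf3

set_option autoImplicit false
open Crest Crest.ProbabilityR

namespace Crest.Agent.S0222

/-- Shuffle a deck of `n = 2 * 2 ^ d` cards `1600 * (d + 1)` times, that is `1600 * log₂ n` times. The total variation distance between the law of the resulting arrangement of the whole deck and the uniform law on all arrangements tends to `0` as `d → ∞`. -/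
theorem result :
    Filter.Tendsto (fun d : ℕ => Crest.ProbabilityR.Shuffle.tvFromUniform (2 ^ d) (1600 * (d + 1)))
      Filter.atTop (nhds 0) :=
  S0222Lib.SWord.shuffle_of_potClose
    (S0222Lib.FRCore.Pot.potClose_of_facts S0222Lib.FRCore.Pot.BoxQ.boxFacts
      S0222Lib.FRCore.Pot.smallFacts)
    (fun h => S0222Lib.SWord.log_index_le h)
    (fun T hT => by
      have h := S0222Lib.JCov.log_Xi3_le16 T hT
      have e : (4.1 : ℝ) = 41 / 10 := by norm_num
      rw [e]
      exact h)
    S0222Lib.JCov.log_Xi3_le1

end Crest.Agent.S0222
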