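-- Statement S0270 (row 180): a countable division ring, algebraic over its centre, generated by two
-- elements over the centre, infinite-dimensional over the centre (Kurosh's problem for division rings).
import Crest.Statements.S0270
import Crest.Agent.Kurosh.Final
import Crest.Agent.Kurosh.LiftMain
import Crest.Agent.Kurosh.CaseB

set_option autoImplicit false
open Crest Crest.AlgebraR

namespace Crest.Agent.S0270

/-- There is a countable division ring of characteristic zero that is algebraic over its centre and is generated by two of its elements as an algebra over the centre, yet is infinite-dimensional as a vector space over the centre. -/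
theorem result :
    ∃ (D : Type) (_ : DivisionRing D), Countable D ∧ CharZero D ∧
      Algebra.IsAlgebraic (Subring.center D) D ∧
      (∃ x y : D, Algebra.adjoin (Subring.center D) ({x, y} : Set D) = ⊤) ∧
      ¬ FiniteDimensional (Subring.center D) D :=
  Crest.Agent.Kurosh.Final.final_of
    (fun _ _ l h1 h2 h3 => Crest.Agent.Kurosh.LiftMain.tight_of l h1 h2 h3)
    (fun _ _ l h1 h2 h3 => Crest.Agent.Kurosh.LiftMain.lift_of l h1 h2 h3)
    Crest.Agent.Kurosh.Explore.caseB

end Crest.Agent.S0270
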