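import Crest.Statements.S0316
import Crest.Agent.S0316Lib.Three
import Crest.Agent.S0316Lib.Degenerate

set_option autoImplicit false
open Crest Crest.GeometryTopology

namespace Crest.Agent.S0316

/-- There is a Hamiltonian diffeomorphism of the complex quadric threefold (the zero set of z₀² + ⋯ + z₄² in complex projective 4-space, with the restricted Fubini–Study form) having exactly three fixed points, at least one of them degenerate. Hamiltonian isotopies are encoded by smooth lifts to the unit isotropic cone in ℂ⁵ obeying Hamilton's equation; points of the quadric are complex lines through cone points; degenerate means the differential of the time-one map fixes a nonzero tangent vector. -/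
theorem result :
    ∃ L : Crest.GeometryTopology.Quadric.HamiltonianConeLift,
      (Crest.GeometryTopology.Quadric.fixedLines L).ncard = 3 ∧
      Crest.GeometryTopology.Quadric.HasDegenerateFixedPoint L := by
  exact ⟨Crest.Agent.S0316Lib.theLift, Crest.Agent.S0316Lib.ncard_three, Crest.Agent.S0316Lib.degenerate⟩

end Crest.Agent.S0316
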