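import Crest.Statements.S0324
import Crest.Agent.Lib.CylCover
import Crest.Agent.Lib.CylShadow

set_option autoImplicit false
open MeasureTheory
open scoped ENNReal
open Crest Crest.GeometryTopology Crest.GeometryTopology.Convex

namespace Crest.Agent.S0324

open Crest.Agent.CylArea Crest.Agent.CylCover Crest.Agent.CylShadow

/-- the scalar between the two normalisations of the Hausdorff measure -/
noncomputable def cc : NNReal :=
  Measure.addHaarScalarFactor (volume : Measure (EuclideanSpace ℝ (Fin 2))) μH[((2:ℕ):ℝ)]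

lemma cc_pos : 0 < cc := by
  unfold cc
  exact Measure.addHaarScalarFactor_pos_of_isAddHaarMeasure _ _

lemma toReal_HE (S : Set E3) :
    ((μHE[2] : Measure E3) S).toReal = (cc : ℝ) * ((μH[(2:ℝ)] : Measure E3) S).toReal := by
  rw [Measure.euclideanHausdorffMeasure_def]
  simp only [Measure.smul_apply, ENNReal.smul_def, smul_eq_mul, ENNReal.toReal_mul, ENNReal.coe_toReal]
  rw [show (μH[((2:ℕ):ℝ)] : Measure E3) = μH[(2:ℝ)] by norm_num]
  rfl

/-- The regular tetrahedron `K` with vertices `(±1, 0, 0)`, `(0, ±1, √2)` is covered by finitely many cylinders `Bᵢ + ℝ uᵢ`, each with unit direction `uᵢ` and base `Bᵢ` a triangle (convex hull of three points) in the plane `uᵢ^⊥`, whose total base area `∑ᵢ area(Bᵢ)` is smaller, by a positive margin, than half the area of the orthogonal projection of `K` onto `v^⊥` for every unit vector `v`; areas are 2-dimensional Hausdorff measure. -/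
theorem result :
    ∃ (m : ℕ) (u p q r : Fin m → EuclideanSpace ℝ (Fin 3)),
      (∀ i, ‖u i‖ = 1) ∧
      (∀ i, inner ℝ (p i) (u i) = 0 ∧ inner ℝ (q i) (u i) = 0 ∧ inner ℝ (r i) (u i) = 0) ∧
      convexHull ℝ {!₂[1, 0, 0], !₂[-1, 0, 0], !₂[0, 1, Real.sqrt 2], !₂[0, -1, Real.sqrt 2]} ⊆
        ⋃ i, {x : EuclideanSpace ℝ (Fin 3) | ∃ b ∈ convexHull ℝ {p i, q i, r i}, ∃ t : ℝ, x = b + t • u i} ∧
      ∃ δ : ℝ, 0 < δ ∧ ∀ v : EuclideanSpace ℝ (Fin 3), ‖v‖ = 1 →
        ∑ i, (μH[(2 : ℝ)] (convexHull ℝ {p i, q i, r i})).toReal + δ ≤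
          (μH[(2 : ℝ)] ((fun y => y - inner ℝ y v • v) '' convexHull ℝ {!₂[1, 0, 0], !₂[-1, 0, 0], !₂[0, 1, Real.sqrt 2], !₂[0, -1, Real.sqrt 2]})).toReal / 2 := by
  obtain ⟨m, u, p, q, r, hu, hperp, hcov, hsum⟩ := stdCover
  refine ⟨m, u, p, q, r, hu, hperp, hcov, (cc : ℝ)⁻¹ * (Real.sqrt 2 * (1 / 100000)), ?_, ?_⟩
  · have h1 : (0 : ℝ) < cc := by exact_mod_cast cc_pos
    positivity
  · intro v hv
    have h1 : (0 : ℝ) < cc := by exact_mod_cast cc_pos
    have hshadow : Real.sqrt 2 ≤ ((μHE[2] : Measure E3) ((fun y => y - inner ℝ y v • v) '' stdK)).toReal := by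
      have := ENNReal.toReal_mono (shadow_ne_top v hv) (shadow_lower v hv)
      rwa [ENNReal.toReal_ofReal (Real.sqrt_nonneg 2)] at this
    rw [toReal_HE] at hshadow
    have htri : ∀ i, ((μH[(2:ℝ)] : Measure E3) (convexHull ℝ {p i, q i, r i})).toReal =
        (cc : ℝ)⁻¹ * (‖cross3 (q i - p i) (r i - p i)‖ / 2) := by
      intro i
      rw [← tri_area_toReal, toReal_HE]
      field_simp
    simp only [htri]
    rw [← Finset.mul_sum]
    have h2 : (cc : ℝ)⁻¹ * (∑ i, ‖cross3 (q i - p i) (r i - p i)‖ / 2) ≤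
        (cc : ℝ)⁻¹ * (Real.sqrt 2 * (1 / 2 - 1 / 100000)) := by
      apply mul_le_mul_of_nonneg_left hsum (by positivity)
    have h3 : (cc : ℝ)⁻¹ * Real.sqrt 2 ≤ ((μH[(2:ℝ)] : Measure E3) ((fun y => y - inner ℝ y v • v) '' stdK)).toReal := by
      rw [inv_mul_le_iff₀ h1]
      exact hshadow
    have h4 : (cc : ℝ)⁻¹ * (Real.sqrt 2 * (1 / 2 - 1 / 100000)) + (cc : ℝ)⁻¹ * (Real.sqrt 2 * (1 / 100000))
        = (cc : ℝ)⁻¹ * Real.sqrt 2 / 2 := by ring
    have h5 : ((μH[(2:ℝ)] : Measure E3) ((fun y => y - inner ℝ y v • v) '' stdK)).toReal =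
      (μH[(2 : ℝ)] ((fun y => y - inner ℝ y v • v) '' convexHull ℝ {!₂[1, 0, 0], !₂[-1, 0, 0], !₂[0, 1, Real.sqrt 2], !₂[0, -1, Real.sqrt 2]})).toReal := rfl
    rw [← h5]
    linarith

end Crest.Agent.S0324
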