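import Crest.Statements.S0325
import Crest.Agent.Lib.CylCover
import Crest.Agent.Lib.CylShadow

set_option autoImplicit false
open MeasureTheory
open scoped ENNReal
open Crest Crest.GeometryTopology Crest.GeometryTopology.Convex

namespace Crest.Agent.S0325

open Crest.Agent.CylArea Crest.Agent.CylCover Crest.Agent.CylShadow

/-- Pad a cover by `640` cylinders with one triangle of prescribed area `G` and degenerate
triangles. -/
lemma pad (M : ℕ) (hM : 641 ≤ M) (G : ℝ) (hG : 0 ≤ G) (T : ℝ)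
    (h : ∃ (u p q r : Fin 640 → E3),
      (∀ i, ‖u i‖ = 1) ∧
      (∀ i, inner ℝ (p i) (u i) = (0:ℝ) ∧ inner ℝ (q i) (u i) = (0:ℝ) ∧ inner ℝ (r i) (u i) = (0:ℝ)) ∧
      stdK ⊆ ⋃ i, {x : E3 | ∃ b ∈ convexHull ℝ {p i, q i, r i}, ∃ t : ℝ, x = b + t • u i} ∧
      ∑ i, ‖cross3 (q i - p i) (r i - p i)‖ / 2 = T) :
    ∃ (u p q r : Fin M → E3),
      (∀ i, ‖u i‖ = 1) ∧
      (∀ i, inner ℝ (p i) (u i) = (0:ℝ) ∧ inner ℝ (q i) (u i) = (0:ℝ) ∧ inner ℝ (r i) (u i) = (0:ℝ)) ∧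
      stdK ⊆ ⋃ i, {x : E3 | ∃ b ∈ convexHull ℝ {p i, q i, r i}, ∃ t : ℝ, x = b + t • u i} ∧
      ∑ i, ‖cross3 (q i - p i) (r i - p i)‖ / 2 = T + G := by
  obtain ⟨k, rfl⟩ : ∃ k, M = 640 + (k + 1) := ⟨M - 641, by omega⟩
  obtain ⟨u, p, q, r, hu, hperp, hcov, hsum⟩ := h
  let e : E3 := !₂[1, 0, 0]
  let a : E3 := !₂[0, 2 * G, 0]
  let b : E3 := !₂[0, 0, 1]
  have he : ‖e‖ = 1 := by
    have h : ‖e‖ ^ 2 = 1 ^ 2 := by rw [norm_sq_eq]; simp [e]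
    exact (pow_left_inj₀ (norm_nonneg _) zero_le_one (by norm_num)).1 h
  have h0e : inner ℝ (0 : E3) e = (0:ℝ) := by simp
  have hae : inner ℝ a e = (0:ℝ) := by rw [inner_eq]; simp [a, e]
  have hbe : inner ℝ b e = (0:ℝ) := by rw [inner_eq]; simp [b, e]
  have hcross : ‖cross3 (a - 0) (b - 0)‖ / 2 = G := by
    have h : ‖cross3 (a - 0) (b - 0)‖ ^ 2 = (2 * G) ^ 2 := by
      rw [norm_sq_eq]; simp [cross3, a, b]
    have := (pow_left_inj₀ (norm_nonneg _) (mul_nonneg (by norm_num : (0:ℝ) ≤ 2) hG) (by norm_num)).1 h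
    rw [this]; ring
  have hcross0 : ‖cross3 ((0 : E3) - 0) ((0 : E3) - 0)‖ / 2 = 0 := by
    have h : ‖cross3 ((0 : E3) - 0) ((0 : E3) - 0)‖ ^ 2 = 0 := by
      rw [norm_sq_eq]; simp [cross3]
    have := pow_eq_zero_iff (two_ne_zero) |>.1 h
    rw [this]; ring
  refine ⟨Fin.addCases u (fun _ => e), Fin.addCases p (fun _ => 0),
    Fin.addCases q (Fin.cases a (fun _ => 0)), Fin.addCases r (Fin.cases b (fun _ => 0)),
    ?_, ?_, ?_, ?_⟩
  · intro i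
    refine Fin.addCases (fun j => ?_) (fun j => ?_) i
    · simp only [Fin.addCases_left]; exact hu j
    · simp only [Fin.addCases_right]; exact he
  · intro i
    refine Fin.addCases (fun j => ?_) (fun j => ?_) i
    · simp only [Fin.addCases_left]; exact hperp j
    · simp only [Fin.addCases_right]
      refine ⟨h0e, ?_, ?_⟩
      · refine Fin.cases ?_ (fun l => ?_) j
        · simpa using hae
        · simp
      · refine Fin.cases ?_ (fun l => ?_) j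
        · simpa using hbe
        · simp
  · intro x hx
    obtain ⟨i, hi⟩ := Set.mem_iUnion.1 (hcov hx)
    refine Set.mem_iUnion.2 ⟨Fin.castAdd _ i, ?_⟩
    simpa only [Fin.addCases_left] using hi
  · rw [Fin.sum_univ_add]
    simp only [Fin.addCases_left, Fin.addCases_right]
    rw [hsum, Fin.sum_univ_succ]
    simp only [Fin.cases_zero, Fin.cases_succ]
    rw [hcross, hcross0]
    simp

/-- Let K be the regular tetrahedron with vertices (±1, 0, 0), (0, ±1, √2); areas are Lebesgue-normalised 2-dimensional Hausdorff measure. (1) The least area of an orthogonal projection of K onto a plane is √2: each map y ↦ y − ⟪y, v⟫ v with ‖v‖ = 1 sends K to a set of area ≥ √2, equal for some v. (2) For every 0 < ε ≤ 5·10⁻⁴, K is covered by 2⌈2/ε²⌉ cylinders Bᵢ + ℝ uᵢ, uᵢ a unit vector, Bᵢ a triangle (convex hull of three points) in uᵢ^⊥, of total area A with ‖A/√2 − 1/2 + 13 ε²/6000‖ ≤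 2 ε⁴. -/
theorem result :
    ((∀ v : EuclideanSpace ℝ (Fin 3), ‖v‖ = 1 →
        ENNReal.ofReal (Real.sqrt 2) ≤ μHE[2] ((fun y => y - inner ℝ y v • v) '' convexHull ℝ {!₂[1, 0, 0], !₂[-1, 0, 0], !₂[0, 1, Real.sqrt 2], !₂[0, -1, Real.sqrt 2]})) ∧
      ∃ v : EuclideanSpace ℝ (Fin 3), ‖v‖ = 1 ∧
        μHE[2] ((fun y => y - inner ℝ y v • v) '' convexHull ℝ {!₂[1, 0, 0], !₂[-1, 0, 0], !₂[0, 1, Real.sqrt 2], !₂[0, -1, Real.sqrt 2]}) = ENNReal.ofReal (Real.sqrt 2)) ∧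
    ∀ ε : ℝ, 0 < ε → ε ≤ 1 / 2000 →
      ∃ (u p q r : Fin (2 * ⌈2 / ε ^ 2⌉₊) → EuclideanSpace ℝ (Fin 3)),
        (∀ i, ‖u i‖ = 1) ∧
        (∀ i, inner ℝ (p i) (u i) = 0 ∧ inner ℝ (q i) (u i) = 0 ∧ inner ℝ (r i) (u i) = 0) ∧
        convexHull ℝ {!₂[1, 0, 0], !₂[-1, 0, 0], !₂[0, 1, Real.sqrt 2], !₂[0, -1, Real.sqrt 2]} ⊆
          ⋃ i, {x : EuclideanSpace ℝ (Fin 3) | ∃ b ∈ convexHull ℝ {p i, q i, r i}, ∃ t : ℝ, x = b + t • u i} ∧
        abs ((∑ i, (μHE[2] (convexHull ℝ ({p i, q i, r i} : Set (EuclideanSpace ℝ (Fin 3))))).toReal) / Real.sqrt 2 -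
            (1 / 2 - 13 / 6000 * ε ^ 2)) ≤ 2 * ε ^ 4 := by
  refine ⟨⟨shadow_lower, shadow_eq⟩, ?_⟩
  intro ε hε hε'
  have hε2 : ε ^ 2 ≤ (1 / 2000) ^ 2 := pow_le_pow_left₀ hε.le hε' 2
  have hε2pos : 0 < ε ^ 2 := by positivity
  have hceil : (8000000 : ℝ) ≤ ⌈2 / ε ^ 2⌉₊ := by
    refine le_trans ?_ (Nat.le_ceil _)
    rw [le_div_iff₀ hε2pos]
    nlinarith
  have hM : 641 ≤ 2 * ⌈2 / ε ^ 2⌉₊ := by
    have : 8000000 ≤ ⌈2 / ε ^ 2⌉₊ := by exact_mod_cast hceil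
    omega
  obtain ⟨u, p, q, r, hu, hperp, hcov, hsum⟩ := stdCover640
  set T : ℝ := ∑ i, ‖cross3 (q i - p i) (r i - p i)‖ / 2 with hT
  have hs2 : 0 < Real.sqrt 2 := by positivity
  have hG : 0 ≤ Real.sqrt 2 * (1 / 2 - 13 / 6000 * ε ^ 2) - T := by
    have h1 : Real.sqrt 2 * (1 / 2 - 1 / 100000) ≤ Real.sqrt 2 * (1 / 2 - 13 / 6000 * ε ^ 2) := by
      apply mul_le_mul_of_nonneg_left _ hs2.le
      nlinarith
    linarith
  obtain ⟨u', p', q', r', hu', hperp', hcov', hsum'⟩ :=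
    pad _ hM _ hG T ⟨u, p, q, r, hu, hperp, hcov, rfl⟩
  refine ⟨u', p', q', r', hu', hperp', hcov', ?_⟩
  have e1 : ∀ i, (μHE[2] (convexHull ℝ ({p' i, q' i, r' i} : Set (EuclideanSpace ℝ (Fin 3))))).toReal =
      ‖cross3 (q' i - p' i) (r' i - p' i)‖ / 2 := fun i => tri_area_toReal _ _ _
  simp only [e1]
  rw [hsum']
  have e2 : (T + (Real.sqrt 2 * (1 / 2 - 13 / 6000 * ε ^ 2) - T)) / Real.sqrt 2 -
      (1 / 2 - 13 / 6000 * ε ^ 2) = 0 := by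
    field_simp
    ring
  rw [e2, abs_zero]
  positivity

end Crest.Agent.S0325
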