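import Crest.Statements.S0453
import Crest.Agent.S0453Lib.Cond
import Crest.Agent.S0453Lib.Connect
import Crest.Agent.S0453Lib.FibDisjoint
import Crest.Agent.S0453Lib.FibJohnson
import Crest.Agent.S0453Lib.FibTriple
import Crest.Agent.S0453Lib.Johnson
import Crest.Agent.S0453Lib.JohnsonFrame
import Crest.Agent.S0453Lib.Kernel
import Crest.Agent.S0453Lib.Main
import Crest.Agent.S0453Lib.Markov
import Crest.Agent.S0453Lib.ThreeRow
import Crest.Agent.S0453Lib.TwoBlock

set_option autoImplicit false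
open Finset
open Crest Crest.LogicCS

namespace Crest.Agent.S0453

open Crest.Agent.S0453Lib in
/-- The labelled-energy Poincaré inequality, from all the packages. -/
theorem poincare_all : Poincare :=
  poincare spectralLemma connect (stepTriple threeRowLemma) (stepDisjoint twoBlockCross)
    (stepFrame johnsonGap (johnsonFrame johnsonGap)) (stepVar johnsonGap)

open Crest.Agent.S0453Lib in
theorem kernel_poincare : KernelPoincare := kernelPoincare poincare_all

/-- Numerical part of the mixing time bound. -/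
theorem numeric_bound (n : ℕ) (hn : 4 ≤ n) (N : ℕ) (hN : N ≤ 2 ^ (n ^ 2)) :
    (N : ℝ) * (1 - 1 / (12 * (n.choose 4 : ℝ))) ^ (2 * n ^ 8) ≤ 1 / 4 := by
  have hnR : (4 : ℝ) ≤ n := by exact_mod_cast hn
  have hn0 : (0 : ℝ) < n := by linarith
  have hC : (1 : ℝ) ≤ (n.choose 4 : ℝ) := by
    exact_mod_cast Nat.choose_pos hn
  have hC' : (n.choose 4 : ℝ) ≤ (n : ℝ) ^ 4 / 24 := by
    have := Nat.choose_le_pow_div (α := ℝ) 4 n
    simpa [Nat.factorial] using this
  set Λ : ℝ := 12 * (n.choose 4 : ℝ) with hΛ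
  have hΛ1 : 12 ≤ Λ := by rw [hΛ]; linarith
  have hΛ0 : 0 < Λ := by linarith
  have hΛ2 : Λ ≤ (n : ℝ) ^ 4 / 2 := by rw [hΛ]; linarith
  have h1 : 0 ≤ 1 - 1 / Λ := by
    have : 1 / Λ ≤ 1 := by
      rw [div_le_one hΛ0]; linarith
    linarith
  have h2 : 1 - 1 / Λ ≤ Real.exp (-(1 / Λ)) := by
    have := Real.add_one_le_exp (-(1 / Λ))
    linarith
  have h3 : (1 - 1 / Λ) ^ (2 * n ^ 8) ≤ Real.exp (-(1 / Λ)) ^ (2 * n ^ 8) :=
    pow_le_pow_left₀ h1 h2 _
  rw [← Real.exp_nat_mul] at h3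
  have h4 : ((2 * n ^ 8 : ℕ) : ℝ) * (-(1 / Λ)) ≤ -(4 * (n : ℝ) ^ 4) := by
    push_cast
    have h5 : 2 / (n : ℝ) ^ 4 ≤ 1 / Λ := by
      rw [div_le_div_iff₀ (by positivity) hΛ0]
      linarith
    have h6 : 2 * (n : ℝ) ^ 8 * (2 / (n : ℝ) ^ 4) = 4 * (n : ℝ) ^ 4 := by
      field_simp
      ring
    have h7 : 2 * (n : ℝ) ^ 8 * (2 / (n : ℝ) ^ 4) ≤ 2 * (n : ℝ) ^ 8 * (1 / Λ) :=
      mul_le_mul_of_nonneg_left h5 (by positivity)
    linarith
  have h8 : (N : ℝ) ≤ Real.exp ((n : ℝ) ^ 2) := by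
    have h9 : (N : ℝ) ≤ 2 ^ (n ^ 2) := by exact_mod_cast hN
    have h10 : (2 : ℝ) ≤ Real.exp 1 := by
      have := Real.add_one_le_exp (1 : ℝ)
      linarith
    have h11 : (2 : ℝ) ^ (n ^ 2) ≤ Real.exp 1 ^ (n ^ 2) := pow_le_pow_left₀ (by norm_num) h10 _
    rw [← Real.exp_nat_mul] at h11
    push_cast at h11
    rw [mul_one] at h11
    linarith
  have h12 : Real.exp (-2) ≤ 1 / 4 := by
    have h10 : (2 : ℝ) ≤ Real.exp 1 := by
      have := Real.add_one_le_exp (1 : ℝ)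
      linarith
    have h13 : Real.exp 2 = Real.exp 1 * Real.exp 1 := by
      rw [← Real.exp_add]; norm_num
    rw [Real.exp_neg, h13]
    have h14 : (4 : ℝ) ≤ Real.exp 1 * Real.exp 1 := by nlinarith
    rw [inv_eq_one_div]
    exact one_div_le_one_div_of_le (by norm_num) h14
  have h15 : (n : ℝ) ^ 2 + -(4 * (n : ℝ) ^ 4) ≤ -2 := by
    have h16 : (16 : ℝ) ≤ (n : ℝ) ^ 2 := by nlinarith
    have h17 : (n : ℝ) ^ 4 = (n : ℝ) ^ 2 * (n : ℝ) ^ 2 := by ring
    nlinarith
  calc (N : ℝ) * (1 - 1 / Λ) ^ (2 * n ^ 8)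
      ≤ Real.exp ((n : ℝ) ^ 2) * Real.exp (-(4 * (n : ℝ) ^ 4)) := by
        refine mul_le_mul h8 (h3.trans (Real.exp_le_exp.2 h4)) (pow_nonneg h1 _)
          (Real.exp_pos _).le
    _ = Real.exp ((n : ℝ) ^ 2 + -(4 * (n : ℝ) ^ 4)) := (Real.exp_add _ _).symm
    _ ≤ Real.exp (-2) := Real.exp_le_exp.2 h15
    _ ≤ 1 / 4 := h12

/-- the number of graphs is at most `2 ^ n²`. -/
theorem card_graphs_le (n : ℕ) (Ω : Finset (Finset (Crest.SwitchChain.Edge n))) :
    Ω.card ≤ 2 ^ (n ^ 2) := by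
  have h1 : Ω.card ≤ Fintype.card (Finset (Crest.SwitchChain.Edge n)) := Finset.card_le_univ Ω
  rw [Fintype.card_finset] at h1
  have h2 : Fintype.card (Crest.SwitchChain.Edge n) ≤ n ^ 2 := by
    have h3 : Fintype.card (Crest.SwitchChain.Edge n) ≤ Fintype.card (Sym2 (Fin n)) :=
      Fintype.card_subtype_le _
    rw [Sym2.card, Fintype.card_fin] at h3
    refine h3.trans ?_
    rw [Nat.choose_two_right]
    simp only [Nat.add_sub_cancel]
    refine Nat.div_le_of_le_mul ?_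
    nlinarith [Nat.zero_le n, sq_nonneg n, Nat.le_self_pow (n := 2) (by norm_num) n]
  exact h1.trans (Nat.pow_le_pow_right (by norm_num) h2)


/-- For every n ≥ 4 and every labeled degree vector on n vertices with a simple realization: the lazy switch chain (hold with probability 1/2, else take a uniform four-vertex set and a uniform ordered pair of distinct perfect matchings on it, swapping the first for the second when the first is present and the second absent) is, from every realization, within total variation 1/4 of uniform on the realizations after some t ≤ 2n^8 steps; and Var(f) ≤ 24 n² C(n,4) ⟨f, (I − P) f⟩ for the uniform law. -/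
theorem result (n : ℕ) (hn : 4 ≤ n)
    (d : Fin n → ℕ) (hd : (Crest.SwitchChain.realizations d).Nonempty) :
    (∃ t : ℕ, t ≤ 2 * n ^ 8 ∧ ∀ G ∈ Crest.SwitchChain.realizations d,
        Crest.SwitchChain.tvDist (fun G' => (Crest.SwitchChain.kernel n ^ t) G G')
          (Crest.SwitchChain.unifOn (Crest.SwitchChain.realizations d)) ≤ 1 / 4) ∧
      ∀ f : Finset (Crest.SwitchChain.Edge n) → ℝ,
        ((Crest.SwitchChain.realizations d).card : ℝ) *
              (∑ G ∈ Crest.SwitchChain.realizations d, f G ^ 2) -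
            (∑ G ∈ Crest.SwitchChain.realizations d, f G) ^ 2 ≤
          24 * (n : ℝ) ^ 2 * (n.choose 4 : ℝ) * (Crest.SwitchChain.realizations d).card *
            ∑ G ∈ Crest.SwitchChain.realizations d,
              f G * (f G - ∑ G' ∈ Crest.SwitchChain.realizations d,
                Crest.SwitchChain.kernel n G G' * f G') := by
  classical
  have hPoin := Crest.Agent.S0453.kernel_poincare n hn d
  obtain ⟨hK0, hKs, hK1, hKl, hKsupp⟩ := Crest.Agent.S0453Lib.kernelFacts n hn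
  have hCpos : (0 : ℝ) < (n.choose 4 : ℝ) := by
    exact_mod_cast Nat.choose_pos hn
  have hΩne : 0 < ((Crest.SwitchChain.realizations d).card : ℝ) := by
    exact_mod_cast hd.card_pos
  refine ⟨⟨2 * n ^ 8, le_refl _, ?_⟩, ?_⟩
  · intro G hG
    have hC1 : (1 : ℝ) ≤ (n.choose 4 : ℝ) := by
      exact_mod_cast Nat.choose_pos hn
    have hTV := Crest.Agent.S0453Lib.markovTV (Crest.SwitchChain.kernel n)
      (Crest.SwitchChain.realizations d) (12 * (n.choose 4 : ℝ)) hd (by linarith)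
      hK0 hKs hK1 hKl (hKsupp d) hPoin (2 * n ^ 8) G hG
    refine hTV.trans ?_
    have hnum := numeric_bound n hn _ (card_graphs_le n (Crest.SwitchChain.realizations d))
    have hsqrt : Real.sqrt (((Crest.SwitchChain.realizations d).card : ℝ) *
        (1 - 1 / (12 * (n.choose 4 : ℝ))) ^ (2 * n ^ 8)) ≤ 1 / 2 := by
      rw [show (1 / 2 : ℝ) = Real.sqrt (1 / 4) by
        rw [show (1 / 4 : ℝ) = (1 / 2) ^ 2 by norm_num, Real.sqrt_sq (by norm_num)]]
      exact Real.sqrt_le_sqrt hnum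
    linarith
  · intro f
    have h1 := hPoin f
    set Ω := Crest.SwitchChain.realizations d with hΩ
    set 𝓔 := ∑ G ∈ Ω, f G * (f G - ∑ G' ∈ Ω, Crest.SwitchChain.kernel n G G' * f G') with h𝓔
    have hvar : (Ω.card : ℝ) * ∑ G ∈ Ω, (f G - Crest.Agent.S0453Lib.avg Ω f) ^ 2
        = (Ω.card : ℝ) * (∑ G ∈ Ω, f G ^ 2) - (∑ G ∈ Ω, f G) ^ 2 := by
      have hmean : Crest.Agent.S0453Lib.avg Ω f = (∑ G ∈ Ω, f G) / Ω.card := rfl
      have e : ∑ G ∈ Ω, (f G - Crest.Agent.S0453Lib.avg Ω f) ^ 2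
          = ∑ G ∈ Ω, f G ^ 2 - 2 * Crest.Agent.S0453Lib.avg Ω f * ∑ G ∈ Ω, f G
            + Ω.card * Crest.Agent.S0453Lib.avg Ω f ^ 2 := by
        rw [Finset.mul_sum, ← Finset.sum_sub_distrib]
        rw [show (Ω.card : ℝ) * Crest.Agent.S0453Lib.avg Ω f ^ 2
            = ∑ _G ∈ Ω, Crest.Agent.S0453Lib.avg Ω f ^ 2 by
          rw [Finset.sum_const, nsmul_eq_mul]]
        rw [← Finset.sum_add_distrib]
        exact Finset.sum_congr rfl fun G _ => by ring
      rw [e, hmean]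
      field_simp
      ring
    rw [← hvar]
    have hvar0 : 0 ≤ ∑ G ∈ Ω, (f G - Crest.Agent.S0453Lib.avg Ω f) ^ 2 :=
      Finset.sum_nonneg fun G _ => sq_nonneg _
    have h𝓔0 : 0 ≤ 𝓔 := by
      by_contra hneg
      push_neg at hneg
      have : (12 * (n.choose 4 : ℝ)) * 𝓔 < 0 := mul_neg_of_pos_of_neg (by positivity) hneg
      linarith
    have hn1 : (1 : ℝ) ≤ (n : ℝ) := by
      have : (4 : ℝ) ≤ n := by exact_mod_cast hn
      linarith
    have hn2 : (1 : ℝ) ≤ (n : ℝ) ^ 2 := one_le_pow₀ hn1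
    have h2 : ∑ G ∈ Ω, (f G - Crest.Agent.S0453Lib.avg Ω f) ^ 2
        ≤ 24 * (n : ℝ) ^ 2 * (n.choose 4 : ℝ) * 𝓔 := by
      refine h1.trans ?_
      refine mul_le_mul_of_nonneg_right ?_ h𝓔0
      nlinarith
    calc (Ω.card : ℝ) * ∑ G ∈ Ω, (f G - Crest.Agent.S0453Lib.avg Ω f) ^ 2
        ≤ (Ω.card : ℝ) * (24 * (n : ℝ) ^ 2 * (n.choose 4 : ℝ) * 𝓔) :=
          mul_le_mul_of_nonneg_left h2 hΩne.le
      _ = _ := by ring

end Crest.Agent.S0453
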